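import Crest.Agent.R110.Quot

/-! Row 110: basic notions (ideals through homomorphisms, closed right ideals, cut-downs). -/

set_option autoImplicit false
set_option linter.unusedSectionVars false

universe u

namespace Crest.Agent.R110

open scoped CStarAlgebra

variable {U : Type u} [CStarAlgebra U] [PartialOrder U] [StarOrderedRing U]

/-- `d` lies in the closed ideal generated by `g` -/
def Kills (g d : U) : Prop :=
  ∀ (B : Type u) [CStarAlgebra B] [PartialOrder B] [StarOrderedRing B] (π : U →⋆ₐ[ℂ] B),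
    π g = 0 → π d = 0

/-- the closed right ideal generated by `g` -/
def RI (g : U) : Set U := closure (Set.range fun z => g * z)

/-- properly infinite -/
def PI (h : U) : Prop := ∀ ε : ℝ, 0 < ε → ∃ r s : U,
  ‖star r * h * r - h‖ < ε ∧ ‖star s * h * s - h‖ < ε ∧ ‖star r * h * s‖ < ε

/-- every positive element of the ideal generated by `e` is properly infinite -/
def PIb (e : U) : Prop := ∀ h : U, 0 ≤ h → Kills e h → PI h

/-- `(a - s)₊` -/
noncomputable def cut (a : U) (s : ℝ) : U := cfc (fun t : ℝ => max (t - s) 0) a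

/-- the ramp function -/
noncomputable def ramp (s l : ℝ) (t : ℝ) : ℝ := min (max (t - s) 0 / l) 1

/-- ramp from `s` to `s + l` -/
noncomputable def rp (a : U) (s l : ℝ) : U := cfc (ramp s l) a

@[fun_prop] theorem continuous_ramp (s l : ℝ) : Continuous (ramp s l) := by
  unfold ramp; fun_prop

theorem ramp_nonneg {s l : ℝ} (hl : 0 < l) (t : ℝ) : 0 ≤ ramp s l t :=
  le_min (div_nonneg (le_max_right _ _) hl.le) zero_le_one

theorem ramp_le_one (s l t : ℝ) : ramp s l t ≤ 1 := min_le_right _ _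

theorem ramp_eq_one {s l t : ℝ} (hl : 0 < l) (h : s + l ≤ t) : ramp s l t = 1 := by
  refine min_eq_right ?_
  rw [le_div_iff₀ hl, one_mul]
  exact le_max_of_le_left (by linarith)

theorem ramp_eq_zero {s l t : ℝ} (h : t ≤ s) : ramp s l t = 0 := by
  rw [ramp, max_eq_right (by linarith), zero_div]; exact min_eq_left zero_le_one

/-! ### homomorphisms -/

section hom

variable {B : Type u} [CStarAlgebra B] [PartialOrder B] [StarOrderedRing B] (π : U →⋆ₐ[ℂ] B)

theorem nmap_le (x : U) : ‖π x‖ ≤ ‖x‖ := NonUnitalStarAlgHom.norm_apply_le π x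

theorem cont_hom : Continuous π := map_continuous π

theorem map_le {x y : U} (h : x ≤ y) : π x ≤ π y := OrderHomClass.mono π h

theorem map_rsmul (r : ℝ) (x : U) : π (r • x) = r • π x := by
  rw [← Complex.coe_smul, map_smul, Complex.coe_smul]

theorem map_cfc' {f : ℝ → ℝ} (hf : Continuous f) {a : U} (ha : IsSelfAdjoint a) :
    π (cfc f a) = cfc f (π a) :=
  StarAlgHom.map_cfc π f a hf.continuousOn (cont_hom π) ha (ha.map π)

theorem map_cut {a : U} (ha : IsSelfAdjoint a) (s : ℝ) : π (cut a s) = cut (π a) s :=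
  map_cfc' π (by fun_prop) ha

theorem map_rp {a : U} (ha : IsSelfAdjoint a) (s l : ℝ) : π (rp a s l) = rp (π a) s l :=
  map_cfc' π (by fun_prop) ha

theorem map_eq_zero_of_star_mul {x : U} (h : π (star x * x) = 0) : π x = 0 := by
  rw [map_mul, map_star] at h
  exact (CStarRing.star_mul_self_eq_zero_iff _).1 h

theorem PI.map {h : U} (hh : PI h) : PI (π h) := by
  intro ε hε
  obtain ⟨r, s, h1, h2, h3⟩ := hh ε hε
  refine ⟨π r, π s, ?_, ?_, ?_⟩
  · simpa only [map_sub, map_mul, map_star] using (nmap_le π _).trans_lt h1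
  · simpa only [map_sub, map_mul, map_star] using (nmap_le π _).trans_lt h2
  · simpa only [map_sub, map_mul, map_star] using (nmap_le π _).trans_lt h3

end hom

theorem Kills.refl (g : U) : Kills g g := fun _ _ _ _ _ h => h

theorem Kills.trans {g d c : U} (h : Kills g d) (h' : Kills d c) : Kills g c :=
  fun B _ _ _ π hg => h' B π (h B π hg)

theorem Kills.mul_left {g d : U} (h : Kills g d) (x : U) : Kills g (x * d) :=
  fun B _ _ _ π hg => by rw [map_mul, h B π hg, mul_zero]

theorem Kills.mul_right {g d : U} (h : Kills g d) (x : U) : Kills g (d * x) :=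
  fun B _ _ _ π hg => by rw [map_mul, h B π hg, zero_mul]

theorem Kills.star {g d : U} (h : Kills g d) : Kills g (star d) :=
  fun B _ _ _ π hg => by rw [map_star, h B π hg, star_zero]

theorem kills_of_star_mul (x : U) : Kills (star x * x) x :=
  fun _ _ _ _ π h => map_eq_zero_of_star_mul π h

theorem PIb.mono {e e' : U} (h : PIb e) (h' : Kills e e') : PIb e' :=
  fun x hx hk => h x hx (h'.trans hk)

theorem PIb.star_mul {e x : U} (h : PIb e) (hx : Kills e x) : PI (star x * x) :=
  h _ (star_mul_self_nonneg x) (hx.mul_left _)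

/-- the quotient by the closed ideal generated by `g` -/
theorem exists_kills_quot (g : U) :
    ∃ (B : Type u) (_ : CStarAlgebra B) (_ : PartialOrder B) (_ : StarOrderedRing B)
      (π : U →⋆ₐ[ℂ] B), Function.Surjective π ∧ ∀ x, π x = 0 ↔ Kills g x := by
  let I : Ideal U :=
    { carrier := {x | Kills g x}
      add_mem' := fun {x y} hx hy B _ _ _ π hg => by rw [map_add, hx B π hg, hy B π hg, add_zero]
      zero_mem' := fun B _ _ _ π _ => map_zero π
      smul_mem' := fun c x hx => Kills.mul_left hx c }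
  have : I.IsTwoSided := ⟨fun {a} b ha => Kills.mul_right ha b⟩
  have hc : IsClosed (I : Set U) := by
    refine isClosed_of_closure_subset fun x hx B _ _ _ π hg => ?_
    have : x ∈ π ⁻¹' {0} :=
      closure_minimal (s := (I : Set U)) (fun y (hy : Kills g y) => hy B π hg)
        (isClosed_singleton.preimage (cont_hom π)) hx
    exact this
  exact exists_quotient I hc

/-! ### closed right ideals -/

theorem RI.ind {g : U} {P : U → Prop} (hP : IsClosed {x | P x}) (h : ∀ z, P (g * z)) {x : U}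
    (hx : x ∈ RI g) : P x :=
  closure_minimal (s := Set.range fun z => g * z) (t := {x | P x})
    (by rintro _ ⟨z, rfl⟩; exact h z) hP hx

theorem isClosed_RI (g : U) : IsClosed (RI g) := isClosed_closure

theorem mul_mem_RI (g z : U) : g * z ∈ RI g := subset_closure ⟨z, rfl⟩

theorem self_mem_RI (g : U) : g ∈ RI g := by simpa using mul_mem_RI g 1

theorem RI.mul_right {g x : U} (hx : x ∈ RI g) (z : U) : x * z ∈ RI g :=
  RI.ind (P := fun x => x * z ∈ RI g) ((isClosed_RI g).preimage (by fun_prop))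
    (fun y => by rw [mul_assoc]; exact mul_mem_RI _ _) hx

theorem RI.trans {e g x : U} (hg : g ∈ RI e) (hx : x ∈ RI g) : x ∈ RI e :=
  RI.ind (P := fun x => x ∈ RI e) (isClosed_RI e) (fun z => RI.mul_right hg z) hx

theorem RI.add {g x y : U} (hx : x ∈ RI g) (hy : y ∈ RI g) : x + y ∈ RI g := by
  refine RI.ind (P := fun x => x + y ∈ RI g) ((isClosed_RI g).preimage (by fun_prop))
    (fun z => ?_) hx
  refine RI.ind (P := fun y => g * z + y ∈ RI g) ((isClosed_RI g).preimage (by fun_prop))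
    (fun z' => ?_) hy
  rw [← mul_add]; exact mul_mem_RI _ _

theorem RI.sub {g x y : U} (hx : x ∈ RI g) (hy : y ∈ RI g) : x - y ∈ RI g := by
  have := RI.add hx (RI.mul_right hy (-1))
  rwa [mul_neg, mul_one, ← sub_eq_add_neg] at this

theorem RI.left_eq {g x a b : U} (h : a * g = b * g) (hx : x ∈ RI g) : a * x = b * x :=
  RI.ind (P := fun x => a * x = b * x) (isClosed_eq (by fun_prop) (by fun_prop))
    (fun z => by rw [← mul_assoc, h, mul_assoc]) hx

theorem RI.fix {g x a : U} (h : a * g = g) (hx : x ∈ RI g) : a * x = x := by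
  simpa using RI.left_eq (b := 1) (by rw [h, one_mul]) hx

theorem RI.ann {g x a : U} (h : a * g = 0) (hx : x ∈ RI g) : a * x = 0 := by
  simpa using RI.left_eq (b := 0) (by rw [h, zero_mul]) hx

theorem RI.mul_left {g x : U} (a : U) (hx : x ∈ RI g) : a * x ∈ RI (a * g) :=
  RI.ind (P := fun x => a * x ∈ RI (a * g)) ((isClosed_RI _).preimage (by fun_prop))
    (fun z => by rw [← mul_assoc]; exact mul_mem_RI _ _) hx

theorem RI.kills {g x : U} (hx : x ∈ RI g) : Kills g x := fun _ _ _ _ π hg =>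
  RI.ind (P := fun x => π x = 0) (isClosed_eq (cont_hom π) continuous_const)
    (fun z => by rw [map_mul, hg, zero_mul]) hx

theorem RI.orth {g g' x y : U} (h : star g * g' = 0) (hx : x ∈ RI g) (hy : y ∈ RI g') :
    star x * y = 0 := by
  have h1 : star g * y = 0 := RI.ann h hy
  have h2 : star y * g = 0 := by rw [← star_star g, ← star_mul, h1, star_zero]
  have h3 := RI.ann h2 hx
  rw [← star_star y, ← star_mul, h3, star_zero]

/-! ### functional calculus -/

theorem cfcm {f g k : ℝ → ℝ} (a : U) (hf : Continuous f) (hg : Continuous g)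
    (h : ∀ t ∈ spectrum ℝ a, f t * g t = k t) : cfc f a * cfc g a = cfc k a := by
  rw [← cfc_mul f g a hf.continuousOn hg.continuousOn]
  exact cfc_congr h

theorem cfc_sa (f : ℝ → ℝ) (a : U) : IsSelfAdjoint (cfc f a) := cfc_predicate f a

theorem cfc_star' (f : ℝ → ℝ) (a : U) : star (cfc f a) = cfc f a := (cfc_sa f a).star_eq

theorem cfc_comm {f g : ℝ → ℝ} (a : U) (hf : Continuous f) (hg : Continuous g) :
    cfc f a * cfc g a = cfc g a * cfc f a := by
  rw [cfcm a hf hg fun _ _ => rfl, cfcm a hg hf fun _ _ => mul_comm _ _]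

theorem spec_nonneg {a : U} (ha : 0 ≤ a) {t : ℝ} (ht : t ∈ spectrum ℝ a) : 0 ≤ t :=
  spectrum_nonneg_of_nonneg ha ht

theorem cut_nonneg (a : U) (s : ℝ) : 0 ≤ cut a s := cfc_nonneg fun _ _ => le_max_right _ _

theorem cut_sa (a : U) (s : ℝ) : IsSelfAdjoint (cut a s) := cfc_sa _ _

theorem rp_nonneg (a : U) (s : ℝ) {l : ℝ} (hl : 0 < l) : 0 ≤ rp a s l :=
  cfc_nonneg fun t _ => ramp_nonneg hl t

theorem rp_sa (a : U) (s l : ℝ) : IsSelfAdjoint (rp a s l) := cfc_sa _ _

theorem rp_le_one (a : U) (s l : ℝ) : rp a s l ≤ 1 := cfc_le_one _ _ fun t _ => ramp_le_one s l t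

theorem norm_rp_le (a : U) (s : ℝ) {l : ℝ} (hl : 0 < l) : ‖rp a s l‖ ≤ 1 :=
  (CStarAlgebra.norm_le_one_iff_of_nonneg _ (rp_nonneg a s hl)).2 (rp_le_one a s l)

theorem norm_one_sub_rp_le (a : U) (s : ℝ) {l : ℝ} (hl : 0 < l) : ‖1 - rp a s l‖ ≤ 1 :=
  (CStarAlgebra.norm_le_one_iff_of_nonneg _ (sub_nonneg.2 (rp_le_one a s l))).2
    (sub_le_self _ (rp_nonneg a s hl))

theorem rp_mul_cut (a : U) {s l s' : ℝ} (hl : 0 < l) (h : s + l ≤ s') :
    rp a s l * cut a s' = cut a s' := by
  refine cfcm a (by fun_prop) (by fun_prop) fun t _ => ?_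
  rcases le_total t s' with ht | ht
  · rw [max_eq_right (by linarith), mul_zero]
  · rw [ramp_eq_one hl (h.trans ht), one_mul]

theorem rp_mul_rp (a : U) {s l s' : ℝ} (l' : ℝ) (hl : 0 < l) (h : s + l ≤ s') :
    rp a s l * rp a s' l' = rp a s' l' := by
  refine cfcm a (by fun_prop) (by fun_prop) fun t _ => ?_
  rcases le_total t s' with ht | ht
  · rw [ramp_eq_zero ht, mul_zero]
  · rw [ramp_eq_one hl (h.trans ht), one_mul]

theorem rp_mem_RI (a : U) (s : ℝ) {l : ℝ} (hl : 0 < l) : rp a s l ∈ RI (cut a s) := by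
  have hc : Continuous fun t : ℝ => (max l (t - s))⁻¹ :=
    Continuous.inv₀ (by fun_prop) fun t => (hl.trans_le (le_max_left _ _)).ne'
  have : cut a s * cfc (fun t : ℝ => (max l (t - s))⁻¹) a = rp a s l := by
    refine cfcm a (by fun_prop) hc fun t _ => ?_
    rcases le_total t s with ht | ht
    · rw [max_eq_right (by linarith), zero_mul, ramp_eq_zero ht]
    · rcases le_total l (t - s) with h | h
      · rw [max_eq_left (by linarith), max_eq_right h, ramp_eq_one hl (by linarith),
          mul_inv_cancel₀ (hl.trans_le h).ne']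
      · rw [max_eq_left (by linarith), max_eq_left h, ramp, max_eq_left (by linarith),
          min_eq_left ((div_le_one hl).2 h), div_eq_mul_inv]
  rw [← this]; exact mul_mem_RI _ _

theorem cut_mem_RI (a : U) {s s' : ℝ} (h : s < s') : cut a s' ∈ RI (cut a s) := by
  rw [← rp_mul_cut a (s := s) (l := s' - s) (s' := s') (by linarith) (by linarith)]
  exact RI.mul_right (rp_mem_RI a s (sub_pos.2 h)) _

theorem cut_zero {a : U} (ha : 0 ≤ a) : cut a 0 = a := by
  conv_rhs => rw [← cfc_id' ℝ a]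
  exact cfc_congr fun t ht => by simp [spec_nonneg ha ht]

theorem cut_mem_RI' {a : U} (ha : 0 ≤ a) {s : ℝ} (h : 0 < s) : cut a s ∈ RI a := by
  simpa only [cut_zero ha] using cut_mem_RI a h

theorem rp_mem_RI' {a : U} (ha : 0 ≤ a) {s l : ℝ} (hs : 0 ≤ s) (hl : 0 < l) :
    rp a s l ∈ RI a := by
  rcases hs.eq_or_lt with rfl | hs
  · simpa only [cut_zero ha] using rp_mem_RI a 0 hl
  · exact RI.trans (cut_mem_RI' ha hs) (rp_mem_RI a s hl)

theorem cut_cut {a : U} (ha : IsSelfAdjoint a) (s : ℝ) {t : ℝ} (ht : 0 ≤ t) :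
    cut (cut a s) t = cut a (s + t) := by
  rw [cut, cut, ← cfc_comp' _ _ a (by fun_prop) (by fun_prop) ha]
  refine cfc_congr fun x _ => ?_
  simp only [max_def]
  split_ifs <;> linarith

theorem rp_le_cut (a : U) (s l : ℝ) : rp a s l ≤ l⁻¹ • cut a s := by
  rw [cut, ← cfc_const_mul _ _ a (by fun_prop)]
  refine cfc_mono (fun t _ => ?_) (by fun_prop) (by fun_prop)
  rw [← div_eq_inv_mul]; exact min_le_left _ _

theorem cut_eq_zero {a : U} (ha : IsSelfAdjoint a) {s : ℝ} (h : a ≤ algebraMap ℝ U s) :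
    cut a s = 0 := by
  rw [le_algebraMap_iff_spectrum_le] at h
  rw [cut, ← cfc_zero ℝ a]
  exact cfc_congr fun t ht => max_eq_right (by linarith [h t ht])

theorem le_add_cut {a : U} (ha : IsSelfAdjoint a) (s : ℝ) : a ≤ algebraMap ℝ U s + cut a s := by
  rw [cut, ← cfc_const_add s _ a (by fun_prop) ha]
  conv_lhs => rw [← cfc_id' ℝ a]
  refine cfc_mono (fun t _ => ?_) (by fun_prop) (by fun_prop)
  linarith [le_max_left (t - s) 0]

theorem norm_cut_sub {a : U} (ha : 0 ≤ a) {s : ℝ} (hs : 0 ≤ s) : ‖cut a s - a‖ ≤ s := by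
  have : cut a s - a = cfc (fun t : ℝ => max (t - s) 0 - t) a := by
    rw [cfc_sub _ _ a (by fun_prop) (by fun_prop), cfc_id' ℝ a]; rfl
  rw [this]
  refine norm_cfc_le hs fun t ht => ?_
  have := spec_nonneg ha ht
  rw [Real.norm_eq_abs, abs_le]
  simp only [max_def]
  split_ifs <;> constructor <;> linarith

theorem norm_cut_le {a : U} (ha : 0 ≤ a) {s : ℝ} (hs : 0 ≤ s) : ‖cut a s‖ ≤ ‖a‖ := by
  refine CStarAlgebra.norm_le_norm_of_nonneg_of_le (cut_nonneg a s) ?_
  conv_rhs => rw [← cfc_id' ℝ a]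
  refine cfc_mono (fun t ht => ?_) (by fun_prop) (by fun_prop)
  exact max_le (by linarith) (spec_nonneg ha ht)

theorem cut_eq_zero_of_norm {a : U} (ha : IsSelfAdjoint a) {s t : ℝ} (h : ‖cut a s‖ ≤ t) :
    cut a (s + t) = 0 := by
  have ht := (norm_nonneg _).trans h
  rw [← cut_cut ha s ht]
  exact cut_eq_zero (cut_sa a s)
    ((CStarAlgebra.norm_le_iff_le_algebraMap _ ht (cut_nonneg a s)).1 h)

theorem eq_zero_of_fix {y c : U} (h : y * c = c) (hy : ‖y‖ < 1) : c = 0 := by
  have h1 := norm_mul_le y c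
  rw [h] at h1
  have h2 := norm_nonneg c
  exact norm_eq_zero.1 (by nlinarith)

theorem norm_sq_eq (x : U) : ‖x‖ ^ 2 = ‖star x * x‖ := by
  rw [CStarRing.norm_star_mul_self, sq]

theorem norm_sq_eq' (x : U) : ‖x‖ ^ 2 = ‖x * star x‖ := by
  rw [CStarRing.norm_self_mul_star, sq]

theorem norm_mono {a b : U} (ha : 0 ≤ a) (h : a ≤ b) : ‖a‖ ≤ ‖b‖ :=
  CStarAlgebra.norm_le_norm_of_nonneg_of_le ha h

theorem mul_self_le_self {p : U} (h0 : 0 ≤ p) (h1 : p ≤ 1) : p * p ≤ p := by
  have := CStarAlgebra.pow_antitone h0 h1 (show 1 ≤ 2 by norm_num)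
  simpa [sq] using this

end Crest.Agent.R110
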