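import Crest.Agent.R110.Exact

/-! Row 110: comparison with a properly infinite element, orthogonal twins. -/

set_option autoImplicit false
set_option linter.unusedSectionVars false

universe u

namespace Crest.Agent.R110

variable {U : Type u} [CStarAlgebra U] [PartialOrder U] [StarOrderedRing U]

/-- Cuntz subequivalence `d ≾ h` -/
def Sub (h d : U) : Prop := d ∈ closure (Set.range fun r => star r * h * r)

theorem sub_iff {h d : U} : Sub h d ↔ ∀ ε : ℝ, 0 < ε → ∃ r, ‖star r * h * r - d‖ < ε := by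
  rw [Sub, Metric.mem_closure_iff]
  refine forall₂_congr fun ε _ => ⟨?_, ?_⟩
  · rintro ⟨_, ⟨r, rfl⟩, h⟩
    exact ⟨r, by rwa [dist_comm, dist_eq_norm] at h⟩
  · rintro ⟨r, h⟩
    exact ⟨_, ⟨r, rfl⟩, by rwa [dist_comm, dist_eq_norm]⟩

theorem Sub.conj {h d : U} (hd : Sub h d) (z : U) : Sub h (star z * d * z) := by
  refine map_mem_closure (f := fun d => star z * d * z) (by fun_prop) hd ?_
  rintro _ ⟨r, rfl⟩
  exact ⟨r * z, by simp only [star_mul, mul_assoc]⟩

theorem Sub.smul {h d : U} (hd : Sub h d) {c : ℝ} (hc : 0 ≤ c) : Sub h (c • d) := by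
  have := hd.conj (Real.sqrt c • 1)
  rwa [star_smul, star_one, star_trivial, smul_mul_assoc, smul_mul_assoc, one_mul, mul_smul_comm,
    mul_one, smul_smul, Real.mul_self_sqrt hc] at this

theorem norm_conj_le (x a y : U) : ‖star x * a * y‖ ≤ ‖x‖ * ‖a‖ * ‖y‖ := by
  refine (norm_mul_le _ _).trans ?_
  gcongr
  exact (norm_mul_le _ _).trans (by rw [norm_star])

theorem Sub.add {h d d' : U} (hh : PI h) (hs : IsSelfAdjoint h) (hd : Sub h d) (hd' : Sub h d') :
    Sub h (d + d') := by
  have key : ∀ r r', Sub h (star r * h * r + star r' * h * r') := by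
    intro r r'
    rw [sub_iff]
    intro ε hε
    set M := (‖r‖ + ‖r'‖) ^ 2 + 1 with hM
    have hM0 : 0 < M := by positivity
    obtain ⟨s, t, h1, h2, h3⟩ := hh (ε / M) (by positivity)
    have h4 : ‖star t * h * s‖ < ε / M := by
      rw [← norm_star]; simpa only [star_mul, star_star, hs.star_eq, mul_assoc] using h3
    refine ⟨s * r + t * r', ?_⟩
    have e : star (s * r + t * r') * h * (s * r + t * r') - (star r * h * r + star r' * h * r') =
        star r * (star s * h * s - h) * r + star r * (star s * h * t) * r' +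
        star r' * (star t * h * s) * r + star r' * (star t * h * t - h) * r' := by
      simp only [star_add, star_mul]; noncomm_ring
    have a1 := norm_conj_le r (star s * h * s - h) r
    have a2 := norm_conj_le r (star s * h * t) r'
    have a3 := norm_conj_le r' (star t * h * s) r
    have a4 := norm_conj_le r' (star t * h * t - h) r'
    have b : ‖r‖ * (ε / M) * ‖r‖ + ‖r‖ * (ε / M) * ‖r'‖ + ‖r'‖ * (ε / M) * ‖r‖ +
        ‖r'‖ * (ε / M) * ‖r'‖ < ε := by
      have : ε / M * M = ε := div_mul_cancel₀ _ hM0.ne'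
      have : 0 < ε / M := by positivity
      nlinarith
    rw [e]
    refine lt_of_le_of_lt ?_ b
    refine norm_add_le_of_le (norm_add_le_of_le (norm_add_le_of_le ?_ ?_) ?_) ?_
    · exact a1.trans (by gcongr)
    · exact a2.trans (by gcongr)
    · exact a3.trans (by gcongr)
    · exact a4.trans (by gcongr)
  have hcl : IsClosed {d | Sub h d} := isClosed_closure
  have k2 : ∀ r, Sub h (star r * h * r + d') := fun r =>
    closure_minimal (t := {d' | Sub h (star r * h * r + d')}) (by rintro _ ⟨r', rfl⟩; exact key r r')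
      (hcl.preimage (by fun_prop)) hd'
  exact closure_minimal (t := {d | Sub h (d + d')}) (by rintro _ ⟨r, rfl⟩; exact k2 r)
    (hcl.preimage (by fun_prop)) hd

theorem le_add_of_norm {b d : U} (hb : IsSelfAdjoint b) (hd : IsSelfAdjoint d) {ε : ℝ}
    (h : ‖b - d‖ ≤ ε) : d ≤ b + algebraMap ℝ U ε := by
  have h1 := (hd.sub hb).le_algebraMap_norm_self
  rw [norm_sub_rev] at h1
  have h2 : algebraMap ℝ U ‖b - d‖ ≤ algebraMap ℝ U ε := by
    rw [Algebra.algebraMap_eq_smul_one, Algebra.algebraMap_eq_smul_one]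
    exact smul_le_smul_of_nonneg_right h zero_le_one
  exact sub_le_iff_le_add'.1 (h1.trans h2)

theorem Sub.of_le {h d d' : U} (hh : 0 ≤ h) (h0 : 0 ≤ d') (hle : d' ≤ d) (hd : Sub h d) :
    Sub h d' := by
  rw [sub_iff] at hd ⊢
  intro ε hε
  obtain ⟨r, hr⟩ := hd (ε / 2) (by positivity)
  set b := star r * h * r with hb
  have hb0 : 0 ≤ b := star_left_conjugate_nonneg hh r
  have h1 := hle.trans (le_add_of_norm (.of_nonneg hb0) (.of_nonneg (h0.trans hle)) hr.le)
  have hc : Continuous fun t : ℝ => (Real.sqrt (max t 0 + ε / 2))⁻¹ :=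
    Continuous.inv₀ (by fun_prop) fun t => (Real.sqrt_pos.2 (by positivity)).ne'
  set γ := cfc (fun t : ℝ => (Real.sqrt (max t 0 + ε / 2))⁻¹) b with hγ
  have hγs : star γ = γ := cfc_star' _ _
  have h2 : γ * (b + algebraMap ℝ U (ε / 2)) * γ = 1 := by
    have e : b + algebraMap ℝ U (ε / 2) = cfc (fun t : ℝ => t + ε / 2) b := by
      rw [cfc_add_const _ _ b (by fun_prop) (.of_nonneg hb0), cfc_id' ℝ b (.of_nonneg hb0)]
    rw [e, cfcm b hc (by fun_prop) fun _ _ => rfl, ← cfc_const_one ℝ b (.of_nonneg hb0)]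
    refine cfcm b (hc.mul (by fun_prop)) hc fun t ht => ?_
    have h0 := spec_nonneg hb0 ht
    have : 0 < Real.sqrt (t + ε / 2) := Real.sqrt_pos.2 (by positivity)
    rw [max_eq_left h0]
    field_simp
    rw [Real.sq_sqrt (by positivity)]
    ring
  set q := sq2 d'
  have hq : star q = q := sq2_star d'
  have hqq : q * q = d' := sq2_mul h0
  have h3 : ‖γ * q‖ ^ 2 ≤ 1 := by
    rw [norm_sq_eq']
    have := star_left_conjugate_le_conjugate h1 γ
    rw [hγs, h2] at this
    refine (CStarAlgebra.norm_le_one_iff_of_nonneg _ (mul_star_self_nonneg _)).2 ?_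
    rw [star_mul, hq, hγs, mul_assoc, ← mul_assoc q, hqq, ← mul_assoc]
    exact this
  refine ⟨r * (γ * q), ?_⟩
  have e : star (r * (γ * q)) * h * (r * (γ * q)) - d' = -((ε / 2) • (star (γ * q) * (γ * q))) := by
    have e1 : star (r * (γ * q)) * h * (r * (γ * q)) = q * (γ * b * γ) * q := by
      simp only [star_mul, hq, hγs, hb, mul_assoc]
    have e2 : γ * b * γ = 1 - (ε / 2) • (γ * γ) := by
      rw [← h2, Algebra.algebraMap_eq_smul_one]
      simp only [mul_add, add_mul, mul_smul_comm, smul_mul_assoc, mul_one, add_sub_cancel_right]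
    rw [e1, e2, star_mul, hq, hγs, ← hqq]
    simp only [mul_sub, sub_mul, mul_one, mul_smul_comm, smul_mul_assoc, mul_assoc]
    abel
  rw [e, norm_neg, norm_smul, ← norm_sq_eq, Real.norm_eq_abs, abs_of_pos (by positivity)]
  nlinarith

theorem sub_of_kills {h d : U} (hh : PI h) (h0 : 0 ≤ h) (hd : 0 ≤ d) (hk : Kills h d) :
    Sub h d := by
  have hself : Sub h h := subset_closure ⟨1, by simp⟩
  let I : Ideal U :=
    { carrier := {x | Sub h (star x * x)}
      add_mem' := fun {x y} hx hy => by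
        refine Sub.of_le h0 (star_mul_self_nonneg _) ?_
          ((Sub.add hh (.of_nonneg h0) hx hy).smul zero_le_two)
        rw [← sub_nonneg]
        convert star_mul_self_nonneg (x - y) using 1
        rw [two_smul, star_add, star_sub]; noncomm_ring
      zero_mem' := by simpa using hself.smul le_rfl
      smul_mem' := fun c x hx => by
        refine Sub.of_le h0 (star_mul_self_nonneg _) ?_ (Sub.smul hx (norm_nonneg (star c * c)))
        have := CStarAlgebra.star_left_conjugate_le_norm_smul (a := x) (b := star c * c)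
          (IsSelfAdjoint.star_mul_self c)
        simpa only [smul_eq_mul, star_mul, mul_assoc] using this }
  have : I.IsTwoSided := ⟨fun {a} b ha => by
    have := Sub.conj ha b
    show Sub h (star (a * b) * (a * b))
    simpa only [star_mul, mul_assoc] using this⟩
  have hc : IsClosed (I : Set U) :=
    isClosed_closure.preimage (f := fun x : U => star x * x) (by fun_prop)
  obtain ⟨B, _, _, _, π, -, hπ⟩ := exists_quotient I hc
  have h1 : sq2 h ∈ I := by
    show Sub h (star (sq2 h) * sq2 h)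
    rwa [sq2_star, sq2_mul h0]
  have h2 : π h = 0 := by rw [← sq2_mul h0, map_mul, (hπ _).2 h1, zero_mul]
  have h3 : π (sq2 d) = 0 :=
    map_eq_zero_of_star_mul π (by rw [sq2_star, sq2_mul hd]; exact hk B π h2)
  have h4 : Sub h (star (sq2 d) * sq2 d) := (hπ _).1 h3
  rwa [sq2_star, sq2_mul hd] at h4

/-- comparison -/
theorem exists_gram {g d y : U} (hg : PI (star g * g)) (hk : Kills g d) (hd : 0 ≤ d) {ε C : ℝ}
    (hε : 0 < ε) (hC : 0 ≤ C) (hy : 0 ≤ y) (hle : y ≤ C • cut d ε) :
    ∃ x ∈ RI g, star x * x = y := by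
  have h1 := sub_of_kills hg (star_mul_self_nonneg g) hd ((kills_of_star_mul g).trans hk)
  obtain ⟨r, hr⟩ := sub_iff.1 h1 (ε / 4) (by positivity)
  set p := rp d (ε / 2) (ε / 2) with hp
  have hps : star p = p := (rp_sa _ _ _).star_eq
  have h2 := le_add_of_norm (.of_nonneg (star_left_conjugate_nonneg (star_mul_self_nonneg g) r))
    (.of_nonneg hd) hr.le
  have h3 := star_left_conjugate_le_conjugate h2 p
  have h4 : (ε / 2) • (p * p) ≤ star p * d * p := by
    have e1 : p * p = cfc (fun t => ramp (ε / 2) (ε / 2) t * ramp (ε / 2) (ε / 2) t) d :=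
      cfcm d (by fun_prop) (by fun_prop) fun _ _ => rfl
    have e2 : star p * d * p =
        cfc (fun t => t * (ramp (ε / 2) (ε / 2) t * ramp (ε / 2) (ε / 2) t)) d := by
      rw [← mul_cfc (.of_nonneg hd) (by fun_prop), ← e1, hps, ← mul_assoc]
      congr 1
      conv_lhs => enter [2]; rw [← cfc_id' ℝ d (.of_nonneg hd)]
      conv_rhs => enter [1]; rw [← cfc_id' ℝ d (.of_nonneg hd)]
      exact cfc_comm d (by fun_prop) (by fun_prop)
    rw [e1, e2, ← cfc_const_mul _ _ d (by fun_prop)]
    refine cfc_mono (fun t _ => ?_) (by fun_prop) (by fun_prop)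
    rcases le_total t (ε / 2) with ht | ht
    · simp [ramp_eq_zero ht]
    · exact mul_le_mul_of_nonneg_right ht (mul_self_nonneg _)
  have h5 : (ε / 4) • (p * p) ≤ star (g * r * p) * (g * r * p) := by
    have e : star p * (star r * (star g * g) * r + algebraMap ℝ U (ε / 4)) * p =
        star (g * r * p) * (g * r * p) + (ε / 4) • (p * p) := by
      rw [Algebra.algebraMap_eq_smul_one]
      simp only [star_mul, hps, mul_add, add_mul, mul_smul_comm, smul_mul_assoc, mul_one, mul_assoc]
    rw [e] at h3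
    have := h4.trans h3
    rwa [show ε / 2 = ε / 4 + ε / 4 by ring, add_smul, add_le_add_iff_right] at this
  have h6 : cut d ε ≤ ‖cut d ε‖ • (p * p) := by
    have e : p * cut d ε = cut d ε := rp_mul_cut d (by positivity) (by linarith)
    have e' : cut d ε * p = cut d ε := by
      rw [← (cut_sa d ε).star_eq, ← hps, ← star_mul, (cut_sa d ε).star_eq, e]
      exact (cut_sa d ε).star_eq
    have := CStarAlgebra.star_left_conjugate_le_norm_smul (a := p) (cut_sa d ε)
    rwa [hps, e, e'] at this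
  obtain ⟨x, hx, hxx⟩ := exists_exact (w := g * r * p) (C := C * ‖cut d ε‖ * (4 / ε))
    (by positivity) hy (by
      refine hle.trans ?_
      rw [mul_assoc, mul_smul]
      refine smul_le_smul_of_nonneg_left (h6.trans ?_) hC
      rw [mul_smul]
      refine smul_le_smul_of_nonneg_left ?_ (norm_nonneg _)
      have := smul_le_smul_of_nonneg_left h5 (show 0 ≤ 4 / ε by positivity)
      rwa [smul_smul, show 4 / ε * (ε / 4) = 1 by field_simp, one_smul] at this)
  exact ⟨x, RI.trans (by rw [mul_assoc]; exact mul_mem_RI _ _) hx, hxx⟩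

/-- orthogonal twins -/
theorem exists_twins {g d y : U} (hg : PIb g) (hk : Kills g d) (hd : 0 ≤ d) {ε C : ℝ}
    (hε : 0 < ε) (hC : 0 ≤ C) (hy : 0 ≤ y) (hle : y ≤ C • cut d ε) :
    ∃ x₁ ∈ RI g, ∃ x₂ ∈ RI g, star x₁ * x₁ = y ∧ star x₂ * x₂ = y ∧ star x₁ * x₂ = 0 := by
  have hds : IsSelfAdjoint d := .of_nonneg hd
  obtain ⟨x, hx, hxx⟩ := exists_gram (hg.star_mul (Kills.refl g)) hk hd (ε := ε / 4) (C := 1)
    (by positivity) zero_le_one (cut_nonneg d _) (by rw [one_smul])
  obtain ⟨r, s, h1, h2, h3⟩ := hg.star_mul (RI.kills hx) (ε / 16) (by positivity)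
  have e : ∀ r s : U, star r * (star x * x) * s = star (x * r) * (x * s) := fun r s => by
    simp only [star_mul, mul_assoc]
  rw [e] at h1 h2 h3
  rw [hxx] at h1 h2
  set v₁ := x * r
  set v₂ := x * s
  have hv₁ : v₁ ∈ RI g := RI.mul_right hx r
  have hv₂ : v₂ ∈ RI g := RI.mul_right hx s
  set H := v₁ * star v₁ with hH
  have hH0 : 0 ≤ H := mul_star_self_nonneg _
  have hHg : H ∈ RI g := RI.mul_right hv₁ _
  set p := rp H 0 (ε / 8) with hp
  have hps : star p = p := (rp_sa _ _ _).star_eq
  have hw₁ : cut H (ε / 8) ∈ RI g := RI.trans hHg (cut_mem_RI' hH0 (by positivity))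
  have hw₂ : v₂ - p * v₂ ∈ RI g :=
    RI.sub hv₂ (RI.mul_right (RI.trans hHg (rp_mem_RI' hH0 le_rfl (by positivity))) _)
  have horth : star (cut H (ε / 8)) * (v₂ - p * v₂) = 0 := by
    have e1 : p * cut H (ε / 8) = cut H (ε / 8) := rp_mul_cut H (by positivity) (by linarith)
    rw [mul_sub, ← mul_assoc _ p, ← hps, ← star_mul, e1, sub_self]
  have hpv : ‖p * v₂‖ ^ 2 ≤ ε / 32 := by
    have a1 : p * p ≤ (ε / 8)⁻¹ • H := by
      refine (mul_self_le_self (rp_nonneg _ _ (by positivity)) (rp_le_one _ _ _)).trans ?_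
      simpa only [cut_zero hH0] using rp_le_cut H 0 (ε / 8)
    have a2 := norm_mono (star_left_conjugate_nonneg (by simpa only [hps] using star_mul_self_nonneg p) v₂)
      (star_left_conjugate_le_conjugate a1 v₂)
    have e1 : star v₂ * (p * p) * v₂ = star (p * v₂) * (p * v₂) := by
      simp only [star_mul, hps, mul_assoc]
    have e2 : star v₂ * ((ε / 8)⁻¹ • H) * v₂ =
        (ε / 8)⁻¹ • (star (star v₁ * v₂) * (star v₁ * v₂)) := by
      simp only [hH, star_mul, star_star, mul_smul_comm, smul_mul_assoc, mul_assoc]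
    rw [e1, e2, norm_smul, ← norm_sq_eq, ← norm_sq_eq, Real.norm_eq_abs,
      abs_of_pos (by positivity)] at a2
    calc _ ≤ (ε / 8)⁻¹ * (ε / 16) ^ 2 := a2.trans (by gcongr)
      _ = ε / 32 := by field_simp; ring
  have key : ∀ (B : Type u) [CStarAlgebra B] [PartialOrder B] [StarOrderedRing B]
      (π : U →⋆ₐ[ℂ] B) (v : U), ‖star v * v - cut d (ε / 4)‖ < ε / 16 → ‖π v‖ ^ 2 ≤ ε / 8 →
      π (cut d (ε / 2)) = 0 := by
    intro B _ _ _ π v hv hv'
    have a1 := (nmap_le π _).trans hv.le
    rw [norm_sq_eq, ← map_star, ← map_mul] at hv'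
    rw [map_sub, map_cut π hds] at a1
    have a2 : ‖cut (π d) (ε / 4)‖ ≤ ε / 4 := by
      have := norm_sub_norm_le (cut (π d) (ε / 4)) (π (star v * v))
      rw [norm_sub_rev] at this
      linarith
    rw [map_cut π hds, show ε / 2 = ε / 4 + ε / 4 by ring]
    exact cut_eq_zero_of_norm (hds.map π) a2
  have k₁ : Kills (cut H (ε / 8)) (cut d (ε / 2)) := by
    intro B _ _ _ π hπ
    refine key B π v₁ h1 ?_
    have a1 := norm_cut_sub (map_le π hH0 |>.trans_eq' (map_zero π)) (s := ε / 8)
      (by positivity)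
    rw [← map_cut π (.of_nonneg hH0), hπ, zero_sub, norm_neg, hH, map_mul, map_star] at a1
    rwa [norm_sq_eq']
  have k₂ : Kills (v₂ - p * v₂) (cut d (ε / 2)) := by
    intro B _ _ _ π hπ
    refine key B π v₂ h2 ?_
    rw [map_sub, sub_eq_zero] at hπ
    rw [hπ]
    have := nmap_le π (p * v₂)
    calc _ ≤ ‖p * v₂‖ ^ 2 := by gcongr
      _ ≤ _ := by linarith
  have hle' : y ≤ C • cut (cut d (ε / 2)) (ε / 2) := by
    rwa [cut_cut hds _ (by positivity), add_halves]
  obtain ⟨x₁, a1, b1⟩ := exists_gram (hg.star_mul (RI.kills hw₁)) k₁ (cut_nonneg _ _)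
    (by positivity) hC hy hle'
  obtain ⟨x₂, a2, b2⟩ := exists_gram (hg.star_mul (RI.kills hw₂)) k₂ (cut_nonneg _ _)
    (by positivity) hC hy hle'
  exact ⟨x₁, RI.trans hw₁ a1, x₂, RI.trans hw₂ a2, b1, b2, RI.orth horth a1 a2⟩

end Crest.Agent.R110
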