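import Crest.Agent.R110.Basic

/-! Row 110: if `0 ≤ y ≤ C w⋆w` then `y = x⋆x` with `x` in the closed right ideal of `w`. -/

set_option autoImplicit false
set_option linter.unusedSectionVars false

universe u

namespace Crest.Agent.R110

open Filter Topology

variable {U : Type u} [CStarAlgebra U] [PartialOrder U] [StarOrderedRing U]

/-- square root -/
noncomputable def sq2 (a : U) : U := cfc Real.sqrt a

theorem sq2_nonneg (a : U) : 0 ≤ sq2 a := cfc_nonneg fun _ _ => Real.sqrt_nonneg _

theorem sq2_star (a : U) : star (sq2 a) = sq2 a := cfc_star' _ _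

theorem sq2_mul {a : U} (ha : 0 ≤ a) : sq2 a * sq2 a = a := by
  conv_rhs => rw [← cfc_id' ℝ a]
  exact cfcm a (by fun_prop) (by fun_prop) fun t ht => Real.mul_self_sqrt (spec_nonneg ha ht)

theorem norm_mul_congr {w β : U} (h : star w * w = star β * β) (Y : U) : ‖w * Y‖ = ‖β * Y‖ := by
  have : ‖w * Y‖ ^ 2 = ‖β * Y‖ ^ 2 := by
    rw [norm_sq_eq, norm_sq_eq, star_mul, star_mul, mul_assoc, mul_assoc, ← mul_assoc (star w), h,
      mul_assoc]
  exact (pow_left_inj₀ (norm_nonneg _) (norm_nonneg _) two_ne_zero).1 this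

theorem mul_cfc {β : U} (hβ : IsSelfAdjoint β) {ψ : ℝ → ℝ} (hψ : Continuous ψ) :
    β * cfc ψ β = cfc (fun s => s * ψ s) β := by
  conv_lhs => enter [1]; rw [← cfc_id' ℝ β]
  exact cfcm β (by fun_prop) hψ fun _ _ => rfl

theorem ex_key {β q : U} {C : ℝ} (hC : 0 ≤ C) (hβ : 0 ≤ β) (hq : star q = q)
    (h : q * q ≤ C ^ 2 • (β * β)) {ψ : ℝ → ℝ} (hψ : Continuous ψ) {ε : ℝ} (hε : 0 ≤ ε)
    (hb : ∀ s, 0 ≤ s → |s * ψ s| ≤ ε) : ‖cfc ψ β * q‖ ≤ C * ε := by
  have h1 : cfc ψ β * q * star (cfc ψ β * q) ≤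
      C ^ 2 • (star (β * cfc ψ β) * (β * cfc ψ β)) := by
    have := star_left_conjugate_le_conjugate h (cfc ψ β)
    rw [cfc_star'] at this
    rw [star_mul, star_mul, hq, cfc_star', hβ.star_eq]
    simpa only [mul_assoc, mul_smul_comm, smul_mul_assoc] using this
  have h2 := norm_mono (mul_star_self_nonneg _) h1
  rw [← norm_sq_eq', norm_smul, ← norm_sq_eq, mul_cfc (.of_nonneg hβ) hψ, Real.norm_eq_abs,
    abs_of_nonneg (by positivity)] at h2
  have h3 : ‖cfc (fun s => s * ψ s) β‖ ≤ ε :=
    norm_cfc_le hε fun s hs => hb s (spec_nonneg hβ hs)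
  have h4 : ‖cfc ψ β * q‖ ^ 2 ≤ (C * ε) ^ 2 := by
    rw [mul_pow]; exact h2.trans (by gcongr)
  exact (pow_le_pow_iff_left₀ (norm_nonneg _) (by positivity) two_ne_zero).1 h4

theorem exists_exact {w y : U} {C : ℝ} (hC : 0 ≤ C) (hy : 0 ≤ y) (h : y ≤ C • (star w * w)) :
    ∃ x ∈ RI w, star x * x = y := by
  set β := sq2 (star w * w) with hβd
  set q := sq2 y
  have hβ : 0 ≤ β := sq2_nonneg _
  have hββ : β * β = star w * w := sq2_mul (star_mul_self_nonneg w)
  have hqq : q * q = y := sq2_mul hy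
  have hq : star q = q := sq2_star y
  have h' : q * q ≤ Real.sqrt C ^ 2 • (β * β) := by rwa [Real.sq_sqrt hC, hββ, hqq]
  have hw : star w * w = star β * β := by rw [hβ.star_eq, hββ]
  let e : ℕ → ℝ := fun n => 1 / ((n : ℝ) + 1)
  have he : ∀ n, 0 < e n := fun n => by positivity
  have hel : Tendsto e atTop (𝓝 0) := tendsto_one_div_add_atTop_nhds_zero_nat
  let g : ℕ → ℝ → ℝ := fun n s => (max s 0 + e n)⁻¹
  have hg : ∀ n, Continuous (g n) := fun n =>
    Continuous.inv₀ (by fun_prop) fun s => by have := he n; positivity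
  let x : ℕ → U := fun n => w * (cfc (g n) β * q)
  have hcau : CauchySeq x := by
    refine cauchySeq_of_le_tendsto_0 (fun N => Real.sqrt C * e N) (fun n m N hn hm => ?_)
      (by simpa using hel.const_mul (Real.sqrt C))
    have e1 : x n - x m = w * (cfc (fun s => g n s - g m s) β * q) := by
      rw [cfc_sub _ _ β (hg n).continuousOn (hg m).continuousOn]
      simp only [x, mul_sub, sub_mul]
    rw [dist_eq_norm, e1, norm_mul_congr hw, ← mul_assoc,
      mul_cfc (ψ := fun s => g n s - g m s) (.of_nonneg hβ) ((hg n).sub (hg m))]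
    refine ex_key (Real.sqrt_nonneg C) hβ hq h' (ψ := fun s => s * (g n s - g m s))
      (continuous_id.mul ((hg n).sub (hg m))) (he N).le fun s hs => ?_
    have a1 := he n
    have a2 := he m
    have a3 : e n ≤ e N := Nat.one_div_le_one_div hn
    have a4 : e m ≤ e N := Nat.one_div_le_one_div hm
    have e2 : s * (s * (g n s - g m s)) = (s / (s + e n)) * (s / (s + e m)) * (e m - e n) := by
      simp only [g, max_eq_left hs]; field_simp; ring
    have b1 : s / (s + e n) ≤ 1 := (div_le_one (by positivity)).2 (by linarith)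
    have b2 : s / (s + e m) ≤ 1 := (div_le_one (by positivity)).2 (by linarith)
    have b3 : |e m - e n| ≤ e N := abs_le.2 ⟨by linarith, by linarith⟩
    show |s * (s * (g n s - g m s))| ≤ e N
    rw [e2, abs_mul, abs_of_nonneg (by positivity)]
    calc _ ≤ 1 * 1 * e N := by gcongr
      _ = e N := by ring
  obtain ⟨X, hX⟩ := cauchySeq_tendsto_of_complete hcau
  refine ⟨X, (isClosed_RI w).mem_of_tendsto hX (Eventually.of_forall fun n => mul_mem_RI _ _), ?_⟩
  let z : ℕ → U := fun n => β * (cfc (g n) β * q)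
  have hz : Tendsto z atTop (𝓝 q) := by
    rw [tendsto_iff_norm_sub_tendsto_zero]
    refine squeeze_zero (fun _ => norm_nonneg _) (fun n => ?_)
      (by simpa using hel.const_mul (Real.sqrt C))
    have e1 : z n - q = cfc (fun s => s * g n s - 1) β * q := by
      rw [cfc_sub (fun s => s * g n s) (fun _ => 1) β (continuous_id.mul (hg n)).continuousOn
        continuousOn_const,
        cfc_const_one ℝ β (IsSelfAdjoint.of_nonneg hβ), ← mul_cfc (.of_nonneg hβ) (hg n)]
      simp only [z, sub_mul, one_mul, mul_assoc]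
    rw [e1]
    refine ex_key (Real.sqrt_nonneg C) hβ hq h' (ψ := fun s => s * g n s - 1)
      ((continuous_id.mul (hg n)).sub continuous_const) (he n).le fun s hs => ?_
    have a1 := he n
    have e2 : s * (s * g n s - 1) = -((s / (s + e n)) * e n) := by
      simp only [g, max_eq_left hs]; field_simp; ring
    have b1 : s / (s + e n) ≤ 1 := (div_le_one (by positivity)).2 (by linarith)
    show |s * (s * g n s - 1)| ≤ e n
    rw [e2, abs_neg, abs_of_nonneg (by positivity)]
    calc _ ≤ 1 * e n := by gcongr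
      _ = e n := by ring
  have h1 : Tendsto (fun n => star (x n) * x n) atTop (𝓝 (star X * X)) := hX.star.mul hX
  have h2 : Tendsto (fun n => star (z n) * z n) atTop (𝓝 (star q * q)) := hz.star.mul hz
  have h3 : (fun n => star (x n) * x n) = fun n => star (z n) * z n := by
    funext n
    simp only [x, z, star_mul]
    rw [mul_assoc, ← mul_assoc (star w), hw]
    simp only [mul_assoc]
  rw [h3] at h1
  rw [tendsto_nhds_unique h1 h2, hq, hqq]

end Crest.Agent.R110
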