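import Crest.Agent.R110.Comp

/-! Row 110: low modules and the projection produced by a scaling element. -/

set_option autoImplicit false
set_option linter.unusedSectionVars false

universe u

namespace Crest.Agent.R110

variable {U : Type u} [CStarAlgebra U] [PartialOrder U] [StarOrderedRing U]

/-- the form `θ² - T⋆T` on the right ideal of `e` -/
noncomputable def dd (e T : U) (θ : ℝ) : U :=
  star e * (algebraMap ℝ U (θ ^ 2) - star T * T) * e

/-- generator of the low module -/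
noncomputable def low (e T : U) (θ : ℝ) : U := e * cut (dd e T θ) 0

theorem form_eq (T ξ : U) (θ : ℝ) : star ξ * (algebraMap ℝ U (θ ^ 2) - star T * T) * ξ =
    θ ^ 2 • (star ξ * ξ) - star (T * ξ) * (T * ξ) := by
  rw [Algebra.algebraMap_eq_smul_one]
  simp only [star_mul, mul_sub, sub_mul, mul_smul_comm, smul_mul_assoc, mul_one, mul_assoc]

theorem dd_sa (e T : U) (θ : ℝ) : IsSelfAdjoint (dd e T θ) := by
  rw [dd, form_eq]
  exact ((IsSelfAdjoint.all _).smul (IsSelfAdjoint.star_mul_self e)).sub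
    (IsSelfAdjoint.star_mul_self _)

theorem low_mem (e T : U) (θ : ℝ) : low e T θ ∈ RI e := mul_mem_RI _ _

theorem norm_le_of_le {x y : U} {θ : ℝ} (hθ : 0 ≤ θ) (h : star x * x ≤ θ ^ 2 • (star y * y)) :
    ‖x‖ ≤ θ * ‖y‖ := by
  have := norm_mono (star_mul_self_nonneg x) h
  rw [norm_smul, ← norm_sq_eq, ← norm_sq_eq, Real.norm_eq_abs, abs_of_nonneg (by positivity),
    ← mul_pow] at this
  exact (pow_le_pow_iff_left₀ (norm_nonneg _) (by positivity) two_ne_zero).1 this

theorem le_norm_of_le {x y : U} {θ : ℝ} (hθ : 0 ≤ θ) (h : θ ^ 2 • (star y * y) ≤ star x * x) :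
    θ * ‖y‖ ≤ ‖x‖ := by
  have := norm_mono (smul_nonneg (by positivity) (star_mul_self_nonneg y)) h
  rw [norm_smul, ← norm_sq_eq, ← norm_sq_eq, Real.norm_eq_abs, abs_of_nonneg (by positivity),
    ← mul_pow] at this
  exact (pow_le_pow_iff_left₀ (by positivity) (norm_nonneg _) two_ne_zero).1 this

theorem mul_cut_zero {d : U} (hd : IsSelfAdjoint d) : d * cut d 0 = cut d 0 * cut d 0 := by
  rw [cut, mul_cfc hd (by fun_prop)]
  refine (cfcm d (by fun_prop) (by fun_prop) fun t _ => ?_).symm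
  rcases le_total t 0 with h | h
  · simp [h]
  · simp [h]

theorem low_le {e T ξ : U} {θ : ℝ} (hθ : 0 ≤ θ) (hξ : ξ ∈ RI (low e T θ)) :
    ‖T * ξ‖ ≤ θ * ‖ξ‖ := by
  refine RI.ind (P := fun ξ => ‖T * ξ‖ ≤ θ * ‖ξ‖) (isClosed_le (by fun_prop) (by fun_prop))
    (fun z => norm_le_of_le hθ ?_) hξ
  rw [← sub_nonneg, ← form_eq]
  set c := cut (dd e T θ) 0 with hc
  have hcs : star c = c := (cut_sa _ _).star_eq
  have e1 : star (low e T θ * z) * (algebraMap ℝ U (θ ^ 2) - star T * T) * (low e T θ * z) =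
      star (c * z) * c * (c * z) := by
    have := mul_cut_zero (dd_sa e T θ)
    rw [← hc] at this
    calc _ = star (c * z) * (dd e T θ * c) * z := by
          rw [low, ← hc, dd]; simp only [star_mul, mul_assoc]
      _ = _ := by rw [this]; simp only [mul_assoc]
  rw [e1]
  exact star_left_conjugate_nonneg (cut_nonneg _ _) _

section hom

variable {B : Type u} [CStarAlgebra B] [PartialOrder B] [StarOrderedRing B] (π : U →⋆ₐ[ℂ] B)

theorem nonpos_iff_cut {d : U} (hd : IsSelfAdjoint d) : π d ≤ 0 ↔ π (cut d 0) = 0 := by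
  rw [map_cut π hd]
  refine ⟨fun h => cut_eq_zero (hd.map π) (by simpa using h), fun h => ?_⟩
  simpa [h] using le_add_cut (hd.map π) 0

theorem dd_nonpos {e T : U} {θ : ℝ} (h : π (low e T θ) = 0) : π (dd e T θ) ≤ 0 := by
  rw [nonpos_iff_cut π (dd_sa e T θ)]
  refine map_eq_zero_of_star_mul π ?_
  rw [(cut_sa _ _).star_eq, ← mul_cut_zero (dd_sa e T θ)]
  have : dd e T θ * cut (dd e T θ) 0 =
      star e * (algebraMap ℝ U (θ ^ 2) - star T * T) * low e T θ := by
    rw [low, ← mul_assoc]; rfl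
  rw [this, map_mul, h, mul_zero]

theorem le_of_dd_nonpos {e T ξ : U} {θ : ℝ} (hθ : 0 ≤ θ) (h : π (dd e T θ) ≤ 0)
    (hξ : ξ ∈ RI e) : θ * ‖π ξ‖ ≤ ‖π (T * ξ)‖ := by
  have hc := cont_hom π
  refine RI.ind (P := fun ξ => θ * ‖π ξ‖ ≤ ‖π (T * ξ)‖) (isClosed_le (by fun_prop) (by fun_prop))
    (fun z => le_norm_of_le hθ ?_) hξ
  have h1 := star_left_conjugate_le_conjugate h (π z)
  have e1 : star z * dd e T θ * z =
      star (e * z) * (algebraMap ℝ U (θ ^ 2) - star T * T) * (e * z) := by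
    simp only [dd, star_mul, mul_assoc]
  rw [mul_zero, zero_mul, ← map_star, ← map_mul, ← map_mul, e1, form_eq, map_sub, sub_nonpos,
    map_rsmul] at h1
  simpa only [map_mul, map_star] using h1

end hom

theorem dd_mono (e : U) {T T' : U} (θ : ℝ) (h : star T * T ≤ star T' * T') :
    dd e T' θ ≤ dd e T θ :=
  star_left_conjugate_le_conjugate (sub_le_sub_left h _) e

/-- a scaling element gives a projection -/
theorem exists_proj {e d₁ d₂ : U} (he : 0 ≤ e) {τ : ℝ} (hτ : 0 < τ)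
    (h₁ : rp e τ τ * d₁ = d₁) (h₂ : rp e τ τ * d₂ = d₂) (h12 : star d₁ * d₂ = 0)
    (hP : PI (star d₁ * d₁)) (hk : Kills d₁ e) :
    ∃ P : U, star P = P ∧ P * P = P ∧ P * d₂ = d₂ ∧ rp e (τ / 2) (τ / 2) * P = P := by
  set ρ := rp e τ τ with hρ
  have hρs : star ρ = ρ := (rp_sa _ _ _).star_eq
  have hρ0 : 0 ≤ ρ := rp_nonneg _ _ hτ
  have hρ2 : ρ * ρ ≤ ρ := mul_self_le_self hρ0 (rp_le_one _ _ _)
  obtain ⟨t, ht, htt⟩ := exists_gram hP hk he (y := ρ + (ρ - ρ * ρ)) (C := 2 * τ⁻¹) hτ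
    (by positivity) (add_nonneg hρ0 (sub_nonneg.2 hρ2)) (by
      rw [mul_smul, two_smul]
      have := rp_le_cut e τ τ
      refine add_le_add this ((sub_le_self _ ?_).trans this)
      simpa only [hρs] using star_mul_self_nonneg ρ)
  set μ := 1 - ρ with hμ
  have hμs : star μ = μ := by rw [hμ, star_sub, star_one, hρs]
  have a1 : μ * t = 0 := RI.ann (by rw [hμ, sub_mul, one_mul, h₁, sub_self]) ht
  have a1' : star t * μ = 0 := by rw [← hμs, ← star_mul, a1, star_zero]
  have a2 : μ * d₂ = 0 := by rw [hμ, sub_mul, one_mul, h₂, sub_self]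
  have a3 : star t * d₂ = 0 := RI.orth h12 ht (self_mem_RI d₂)
  have hv : star (t + μ) * (t + μ) = 1 := by
    rw [star_add, hμs, add_mul, mul_add, mul_add, a1, a1', htt, hμ]; noncomm_ring
  set ν := 1 - rp e (τ / 2) (τ / 2) with hν
  have hνs : star ν = ν := by rw [hν, star_sub, star_one, (rp_sa _ _ _).star_eq]
  have b0 : ν * ρ = 0 := by
    rw [hν, sub_mul, one_mul, rp_mul_rp e τ (by positivity) (by linarith), sub_self]
  have b1 : ν * μ = ν := by rw [hμ, mul_sub, mul_one, b0, sub_zero]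
  have b2 : ν * t = 0 := by rw [← b1, mul_assoc, a1, mul_zero]
  have b3 : ν * star t = 0 := by
    refine (CStarRing.mul_star_self_eq_zero_iff _).1 ?_
    rw [star_mul, star_star, mul_assoc, ← mul_assoc (star t), htt, ← mul_assoc, mul_add, mul_sub,
      ← mul_assoc, b0]
    simp
  refine ⟨1 - (t + μ) * star (t + μ), by simp only [star_sub, star_one, star_mul, star_star], ?_,
    ?_, ?_⟩
  · rw [sub_mul, one_mul, mul_sub, mul_one, mul_assoc, ← mul_assoc (star (t + μ)), hv, one_mul,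
      sub_self, sub_zero]
  · rw [sub_mul, one_mul, mul_assoc, star_add, hμs, add_mul (star t), a3, a2, add_zero, mul_zero,
      sub_zero]
  · have : ν * (1 - (t + μ) * star (t + μ)) = 0 := by
      rw [mul_sub, mul_one, ← mul_assoc, mul_add, b2, b1, zero_add, star_add, hμs, mul_add, b3, b1,
        zero_add, sub_self]
    rw [hν, sub_mul, one_mul, sub_eq_zero] at this
    exact this.symm

end Crest.Agent.R110
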