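import Crest.Agent.R110.Low

/-! Row 110: the nested lemma (an arbitrary form on one module can be made small between two
full submodules). -/

set_option autoImplicit false
set_option linter.unusedSectionVars false

universe u

namespace Crest.Agent.R110

variable {U : Type u} [CStarAlgebra U] [PartialOrder U] [StarOrderedRing U]

/-- the form `k` is bounded by `β` on the two modules -/
def Bound (g g' k : U) (β : ℝ) : Prop :=
  ∀ ξ ∈ RI g, ∀ η ∈ RI g', ‖star ξ * k * η‖ ≤ β * ‖ξ‖ * ‖η‖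

theorem bound_low {e k W g' : U} {θ : ℝ} (hθ : 0 ≤ θ) (hW : star W = W) (h : W * g' = g') :
    Bound (low e (W * star k) θ) g' k θ := by
  intro ξ hξ η hη
  have e1 : star ξ * k * η = star (W * star k * ξ) * η := by
    rw [star_mul, star_mul, star_star, hW, mul_assoc, mul_assoc, mul_assoc, RI.fix h hη]
  rw [e1]
  refine (norm_mul_le _ _).trans ?_
  rw [norm_star]
  exact mul_le_mul_of_nonneg_right (low_le hθ hξ) (norm_nonneg _)

/-- modulo the good ideal there is a full projection -/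
theorem exists_lift {e : U} (he : 0 ≤ e) (hP : PIb e) (k : U) {τ θ : ℝ} (hτ : 0 < τ)
    (hθ : 0 < θ) : ∃ Z ∈ RI e, ∀ (B : Type u) [CStarAlgebra B] [PartialOrder B]
      [StarOrderedRing B] (π : U →⋆ₐ[ℂ] B), π (dd e (rp e (3 * τ) τ * star k) θ) ≤ 0 →
        star (π Z) = π Z ∧ π Z * π Z = π Z ∧ (π Z = 0 → π e = 0) := by
  have hes : IsSelfAdjoint e := .of_nonneg he
  set d₀ := dd e (rp e (3 * τ) τ * star k) θ with hd₀
  have hg : cut e (2 * τ) ∈ RI e := cut_mem_RI' he (by positivity)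
  obtain ⟨d₁, h₁, d₂, h₂, g₁, g₂, h12⟩ := exists_twins (hP.mono (RI.kills hg)) (Kills.refl _)
    (cut_nonneg _ _) (y := cut e (3 * τ)) (C := 1) hτ zero_le_one (cut_nonneg _ _)
    (by rw [cut_cut hes _ hτ.le, one_smul, show 2 * τ + τ = 3 * τ by ring])
  have key : ∀ (B : Type u) [CStarAlgebra B] [PartialOrder B] [StarOrderedRing B]
      (π : U →⋆ₐ[ℂ] B) (d : U), star d * d = cut e (3 * τ) → π d₀ ≤ 0 → π d = 0 → π e = 0 := by
    intro B _ _ _ π d hd h0 hπ
    have a1 : π (cut e (3 * τ)) = 0 := by rw [← hd, map_mul, hπ, mul_zero]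
    have a2 := RI.kills (rp_mem_RI e (3 * τ) hτ) B π a1
    have a3 := le_of_dd_nonpos π hθ.le h0 (self_mem_RI e)
    rw [map_mul, map_mul, a2, zero_mul, zero_mul, norm_zero] at a3
    exact norm_eq_zero.1 (le_antisymm (by nlinarith [norm_nonneg (π e)]) (norm_nonneg _))
  obtain ⟨B₀, _, _, _, π₀, hs, hπ₀⟩ := exists_kills_quot (cut d₀ 0)
  have f : ∀ d ∈ RI (cut e (2 * τ)), rp (π₀ e) τ τ * π₀ d = π₀ d := fun d hd => by
    rw [← map_rp π₀ hes, ← map_mul, RI.fix (rp_mul_cut e hτ (by linarith)) hd]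
  obtain ⟨P, p1, p2, p3, p4⟩ := exists_proj (e := π₀ e) (d₁ := π₀ d₁) (d₂ := π₀ d₂)
    ((map_le π₀ he).trans_eq' (map_zero π₀)) hτ (f _ h₁) (f _ h₂)
    (by rw [← map_star, ← map_mul, h12, map_zero])
    (by rw [← map_star, ← map_mul]; exact (hP.star_mul (RI.kills (RI.trans hg h₁))).map π₀)
    (fun B _ _ _ ρ hρ => key B (ρ.comp π₀) d₁ g₁
      ((nonpos_iff_cut _ (dd_sa _ _ _)).2 (by
        rw [StarAlgHom.comp_apply, (hπ₀ _).2 (Kills.refl _), map_zero])) hρ)
  obtain ⟨z, rfl⟩ := hs P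
  set Z := rp e (τ / 2) (τ / 2) * z with hZ
  have hZ0 : π₀ Z = π₀ z := by rw [hZ, map_mul, map_rp π₀ hes, p4]
  rw [← hZ0] at p1 p2 p3
  refine ⟨Z, RI.mul_right (rp_mem_RI' he (by positivity) (by positivity)) _,
    fun B _ _ _ π h0 => ?_⟩
  have h0' := (nonpos_iff_cut π (dd_sa _ _ _)).1 h0
  have q1 := (hπ₀ (star Z - Z)).1 (by rw [map_sub, map_star, p1, sub_self]) B π h0'
  have q2 := (hπ₀ (Z * Z - Z)).1 (by rw [map_sub, map_mul, p2, sub_self]) B π h0'
  have q3 := (hπ₀ (Z * d₂ - d₂)).1 (by rw [map_sub, map_mul, p3, sub_self]) B π h0'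
  rw [map_sub, sub_eq_zero] at q1 q2 q3
  rw [map_star] at q1
  rw [map_mul] at q2 q3
  exact ⟨q1, q2, fun h => key B π d₂ g₂ h0 (by rw [← q3, h, zero_mul])⟩

theorem norm_sq_le_of_le {B : Type u} [CStarAlgebra B] [PartialOrder B] [StarOrderedRing B]
    (π : U →⋆ₐ[ℂ] B) {W A z : U} (h : star W * W ≤ (4 : ℝ) • (A * star A + z * star z)) (v : U) :
    ‖π (W * v)‖ ^ 2 ≤ 4 * (‖π (star A * v)‖ ^ 2 + ‖π (star z * v)‖ ^ 2) := by
  have h1 := map_le π (star_left_conjugate_le_conjugate h v)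
  have e1 : star v * (star W * W) * v = star (W * v) * (W * v) := by
    simp only [star_mul, mul_assoc]
  have e2 : star v * ((4 : ℝ) • (A * star A + z * star z)) * v =
      (4 : ℝ) • (star (star A * v) * (star A * v) + star (star z * v) * (star z * v)) := by
    simp only [star_mul, star_star, mul_smul_comm, smul_mul_assoc, mul_add, add_mul, mul_assoc]
  rw [e1, e2, map_rsmul, map_add, map_mul π (star _), map_mul π (star (star A * v)),
    map_mul π (star (star z * v)), map_star, map_star π (star A * v),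
    map_star π (star z * v)] at h1
  have h2 := norm_mono (star_mul_self_nonneg _) h1
  rw [norm_smul, ← norm_sq_eq] at h2
  refine h2.trans ?_
  rw [Real.norm_eq_abs, abs_of_pos (by norm_num), norm_sq_eq, norm_sq_eq]
  gcongr
  exact norm_add_le _ _

theorem damp_le {m : U} (hm : 0 ≤ m) {ε : ℝ} (hε : 0 < ε) :
    (1 - rp m 0 ε) * m * (1 - rp m 0 ε) ≤ algebraMap ℝ U ε := by
  have hs : IsSelfAdjoint m := .of_nonneg hm
  have e1 : 1 - rp m 0 ε = cfc (fun t => 1 - ramp 0 ε t) m := by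
    rw [cfc_sub (fun _ => 1) _ m continuousOn_const (by fun_prop), cfc_const_one ℝ m hs]; rfl
  rw [e1, mul_assoc, mul_cfc hs (by fun_prop),
    cfcm m (by fun_prop) (by fun_prop) fun _ _ => rfl]
  refine cfc_le_algebraMap _ _ m (fun t ht => ?_) (by fun_prop) hs
  have h0 := spec_nonneg hm ht
  rcases le_total ε t with h | h
  · rw [ramp_eq_one hε (by linarith)]; simpa using hε.le
  · have a := ramp_nonneg (s := 0) hε t
    have b := ramp_le_one 0 ε t
    nlinarith [mul_nonneg h0 a, mul_nonneg (sub_nonneg.2 b) (mul_nonneg h0 a)]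

theorem rp_zero_le {m : U} (hm : IsSelfAdjoint m) {ε : ℝ} (hε : 0 < ε)
    (h : cut m (ε / 4) = 0) : ‖rp m 0 ε‖ ≤ 1 / 4 := by
  have h1 := le_add_cut hm (ε / 4)
  rw [h, add_zero, le_algebraMap_iff_spectrum_le] at h1
  refine norm_cfc_le (by norm_num) fun t ht => ?_
  rw [Real.norm_eq_abs, abs_of_nonneg (ramp_nonneg hε t)]
  refine (min_le_left _ _).trans ?_
  rw [div_le_iff₀ hε]
  exact max_le (by linarith [h1 t ht]) (by positivity)

/-- the second module, relative to an element `Z` which is a projection modulo an ideal -/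
theorem exists_second {e : U} (he : 0 ≤ e) (hP : PIb e) (k : U) {Z : U} (hZ : Z ∈ RI e)
    {τ : ℝ} (hτ : 0 < τ) : ∃ W g' : U, 0 ≤ W ∧ W ≤ 1 ∧ rp e (3 * τ) τ * W = W ∧
      rp e (3 * τ) τ * g' = g' ∧ W * g' = g' ∧ Kills g' (cut e (6 * τ)) ∧
      ∀ (B : Type u) [CStarAlgebra B] [PartialOrder B] [StarOrderedRing B] (π : U →⋆ₐ[ℂ] B),
        star (π Z) = π Z → π Z * π Z = π Z →
        (∀ ξ ∈ RI e, 1 / 10 * ‖π ξ‖ ≤ ‖π (W * star k * ξ)‖) → π Z = 0 := by
  set ε : ℝ := 1 / 1600 with hε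
  have hε0 : 0 < ε := by norm_num [hε]
  set φ := rp e (3 * τ) τ
  set f := rp e (4 * τ) τ with hf
  set y := rp e (5 * τ) τ with hy
  have hfs : star f = f := (rp_sa _ _ _).star_eq
  have hys : star y = y := (rp_sa _ _ _).star_eq
  have hφf : φ * f = f := rp_mul_rp e τ hτ (by linarith)
  have hfy : f * y = y := rp_mul_rp e τ hτ (by linarith)
  have hfe : Kills e f := RI.kills (rp_mem_RI' he (by positivity) hτ)
  set c := star Z * k * f with hc
  set h := star c * c with hh
  have hh0 : 0 ≤ h := star_mul_self_nonneg c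
  have hhs : IsSelfAdjoint h := .of_nonneg hh0
  have hhe : Kills e h := (hfe.mul_left _).mul_left _
  have hge : Kills e (cut h ε) := hhe.trans (RI.kills (cut_mem_RI' hh0 hε0))
  obtain ⟨u₁, m₁, u₂, m₂, g₁, g₂, h12⟩ := exists_twins (hP.mono hge) (Kills.refl _)
    (cut_nonneg _ _) (y := cut h (2 * ε)) (C := 1) hε0 zero_le_one (cut_nonneg _ _)
    (by rw [cut_cut hhs _ hε0.le, one_smul, two_mul])
  have h21 : star u₂ * u₁ = 0 := by rw [← star_star u₁, ← star_mul, h12, star_zero]
  have hcγ : Continuous fun t : ℝ => (max t ε)⁻¹ :=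
    Continuous.inv₀ (by fun_prop) fun t => (hε0.trans_le (le_max_right _ _)).ne'
  set γ := cfc (fun t : ℝ => (max t ε)⁻¹) h with hγ
  have hγs : star γ = γ := cfc_star' _ _
  have hγ1 : h * γ * cut h ε = cut h ε := by
    rw [mul_cfc hhs hcγ]
    refine cfcm h (continuous_id.mul hcγ) (by fun_prop) fun t _ => ?_
    rcases le_total t ε with ht | ht
    · rw [max_eq_right (sub_nonpos.2 ht), mul_zero]
    · rw [max_eq_left ht, mul_inv_cancel₀ (hε0.trans_le ht).ne', one_mul]
  have hγ2 : γ * h = h * γ := by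
    have := (cfc_sa (fun s : ℝ => s * (max s ε)⁻¹) h).star_eq
    rwa [← mul_cfc hhs hcγ, star_mul, hγs, hhs.star_eq] at this
  have hu₁ : γ * h * u₁ = u₁ := RI.fix (by rw [hγ2, hγ1]) m₁
  have hu₂ : h * γ * u₂ = u₂ := RI.fix hγ1 m₂
  set m := y * cut h (2 * ε) * y with hm
  have hm0 : 0 ≤ m := by
    have := star_left_conjugate_nonneg (cut_nonneg h (2 * ε)) y
    rwa [hys] at this
  have hms : IsSelfAdjoint m := .of_nonneg hm0
  set v := rp m 0 ε with hv
  have hvs : star (1 - v) = 1 - v := by rw [star_sub, star_one, (rp_sa _ _ _).star_eq]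
  set A := y * (1 - v) with hA
  have hcA : ‖c * A‖ ^ 2 ≤ 3 * ε := by
    have a1 := star_left_conjugate_le_conjugate (le_add_cut hhs (2 * ε)) A
    have a2 : star A * A ≤ 1 := by
      refine (CStarAlgebra.norm_le_one_iff_of_nonneg _ (star_mul_self_nonneg _)).1 ?_
      rw [← norm_sq_eq]
      refine pow_le_one₀ (norm_nonneg _) ((norm_mul_le _ _).trans ?_)
      exact mul_le_one₀ (norm_rp_le _ _ hτ) (norm_nonneg _) (norm_one_sub_rp_le _ _ hε0)
    have e1 : star A * h * A = star (c * A) * (c * A) := by simp only [hh, star_mul c, mul_assoc]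
    have e2 : star A * (algebraMap ℝ U (2 * ε) + cut h (2 * ε)) * A =
        (2 * ε) • (star A * A) + (1 - v) * m * (1 - v) := by
      rw [Algebra.algebraMap_eq_smul_one, mul_add, add_mul, mul_smul_comm, smul_mul_assoc, mul_one]
      congr 1
      rw [hA, star_mul, hvs, hys, hm]; simp only [mul_assoc]
    rw [e1, e2] at a1
    rw [norm_sq_eq, CStarAlgebra.norm_le_iff_le_algebraMap _ (by positivity)
      (star_mul_self_nonneg _), show 3 * ε = 2 * ε + ε by ring, map_add]
    refine a1.trans (add_le_add ?_ (damp_le hm0 hε0))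
    rw [Algebra.algebraMap_eq_smul_one]
    exact smul_le_smul_of_nonneg_left a2 (by positivity)
  have kk : ∀ w : U, star w * w = cut h (2 * ε) → Kills w m := fun w hw =>
    (((Kills.refl w).mul_left (star w)).mul_left y).mul_right y |>.trans
      (by rw [hw]; exact Kills.refl _)
  have k₁ : Kills (f * u₁) m := by
    refine Kills.trans ?_ (kk u₁ g₁)
    have : u₁ = γ * star c * star Z * k * (f * u₁) := by
      conv_lhs => rw [← hu₁, hh]
      conv_lhs => enter [1, 2, 2]; rw [hc]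
      simp only [mul_assoc]
    conv_rhs => rw [this]
    exact (Kills.refl _).mul_left _
  obtain ⟨z, hz, hzz⟩ := exists_gram (hP.star_mul (hfe.mul_right u₁)) k₁ hm0
    (y := rp m (ε / 8) (ε / 8)) (ε := ε / 8) (C := (ε / 8)⁻¹) (by positivity) (by positivity)
    (rp_nonneg _ _ (by positivity)) (rp_le_cut _ _ _)
  set S := A * star A + z * star z with hS
  have hS0 : 0 ≤ S := add_nonneg (mul_star_self_nonneg _) (mul_star_self_nonneg _)
  have hφS : φ * S = S := by
    have a1 : φ * z = z := RI.fix (by rw [← mul_assoc, hφf]) hz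
    have a2 : φ * A = A := by rw [hA, ← hfy, ← mul_assoc, ← mul_assoc, hφf]
    rw [hS, mul_add, ← mul_assoc φ A, ← mul_assoc φ z, a1, a2]
  set W := rp S 0 (1 / 4) with hW
  have hWs : star W = W := (rp_sa _ _ _).star_eq
  have hW0 : 0 ≤ W := rp_nonneg _ _ (by norm_num)
  have hWW : star W * W ≤ (4 : ℝ) • S := by
    rw [hWs]
    refine (mul_self_le_self hW0 (rp_le_one _ _ _)).trans ?_
    have := rp_le_cut S 0 (1 / 4)
    rw [cut_zero hS0] at this
    convert this using 2
    norm_num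
  refine ⟨W, cut S (1 / 4), hW0, rp_le_one _ _ _, RI.fix hφS (rp_mem_RI' hS0 le_rfl (by norm_num)),
    RI.fix hφS (cut_mem_RI' hS0 (by norm_num)), rp_mul_cut S (by norm_num) (by norm_num),
    fun B _ _ _ π hπ => ?_, fun B _ _ _ π p1 p2 H => ?_⟩
  · have a1 := norm_cut_sub ((map_le π hS0).trans_eq' (map_zero π)) (s := 1 / 4) (by norm_num)
    rw [← map_cut π (.of_nonneg hS0), hπ, zero_sub, norm_neg] at a1
    have b : ∀ x : U, x * star x ≤ S → ‖π x‖ ^ 2 ≤ 1 / 4 := fun x hx => by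
      rw [norm_sq_eq', ← map_star, ← map_mul]
      exact (norm_mono ((map_le π (mul_star_self_nonneg x)).trans_eq' (map_zero π))
        (map_le π hx)).trans a1
    have a2 := b z (le_add_of_nonneg_left (mul_star_self_nonneg _))
    have a3 := b A (le_add_of_nonneg_right (mul_star_self_nonneg _))
    rw [norm_sq_eq, ← map_star, ← map_mul, hzz, map_rp π hms] at a2
    have a4 : cut (π m) (ε / 4) = 0 :=
      eq_zero_of_fix (rp_mul_cut (π m) (by positivity) (by linarith)) (a2.trans_lt (by norm_num))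
    have a5 := rp_zero_le (hms.map π) hε0 a4
    rw [← map_rp π hms, ← hv] at a5
    have a6 : ‖π A‖ ≤ 1 / 2 := by nlinarith [norm_nonneg (π A)]
    have a7 : ‖π y‖ ≤ ‖π A‖ + ‖π y‖ * ‖π v‖ := by
      have : π y = π A + π y * π v := by
        rw [← map_mul, ← map_add, hA, mul_sub, mul_one, sub_add_cancel]
      conv_lhs => rw [this]
      exact norm_add_le_of_le le_rfl (norm_mul_le _ _)
    have a8 : ‖π y‖ < 1 := by nlinarith [norm_nonneg (π y)]
    refine eq_zero_of_fix ?_ a8
    rw [← map_mul, rp_mul_cut e hτ (by linarith)]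
  · have eA : star A * (star k * Z) = star (c * A) := by
      conv_lhs => rw [hA, ← hfy]
      simp only [hc, hA, star_mul, star_star, hfs, mul_assoc]
    have test : ∀ ξ : U, π (star z * (star k * (Z * ξ))) = 0 → ‖π (Z * ξ)‖ ^ 2 ≤
        3 / 4 * ‖π ξ‖ ^ 2 := by
      intro ξ hξ
      have a1 := H _ (RI.mul_right hZ ξ)
      have a2 := norm_sq_le_of_le π hWW (star k * (Z * ξ))
      rw [hξ, norm_zero, ← mul_assoc (star k), ← mul_assoc (star A), eA, map_mul π _ ξ,
        mul_assoc (star k), ← mul_assoc W] at a2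
      have a3 : ‖π (star (c * A)) * π ξ‖ ≤ ‖c * A‖ * ‖π ξ‖ := by
        refine (norm_mul_le _ _).trans ?_
        gcongr
        exact (nmap_le π _).trans_eq (norm_star _)
      have a4 : ‖π (star (c * A)) * π ξ‖ ^ 2 ≤ 3 * ε * ‖π ξ‖ ^ 2 := by
        calc _ ≤ (‖c * A‖ * ‖π ξ‖) ^ 2 := by gcongr
          _ ≤ _ := by rw [mul_pow]; gcongr
      have a5 : (1 / 10 * ‖π (Z * ξ)‖) ^ 2 ≤ ‖π (W * star k * (Z * ξ))‖ ^ 2 := by gcongr
      rw [hε] at a4
      nlinarith
    have t1 : π (c * γ * u₂) = 0 := by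
      have a0 : star (Z * (c * γ * u₂)) * k * z = 0 := by
        refine RI.ann ?_ hz
        calc _ = star u₂ * (γ * h * u₁) := by
              simp only [hh, star_mul, star_star, hγs, hc, hfs, mul_assoc]
          _ = 0 := by rw [hu₁, h21]
      have a1 := test (c * γ * u₂) (by
        rw [← map_zero π, ← star_zero U, ← a0]; simp only [star_mul, star_star, mul_assoc])
      have a2 : π (Z * (c * γ * u₂)) = π (c * γ * u₂) := by
        simp only [hc, map_mul, map_star, p1, ← mul_assoc, p2]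
      rw [a2] at a1
      exact norm_eq_zero.1 (by nlinarith [norm_nonneg (π (c * γ * u₂))])
    have t2 : π u₂ = 0 := by
      rw [← hu₂, hh, mul_assoc, mul_assoc, ← mul_assoc c, map_mul, t1, mul_zero]
    have t3 : π z = 0 := by
      refine map_eq_zero_of_star_mul π ?_
      rw [hzz]
      exact RI.kills (rp_mem_RI' hm0 (by positivity) (by positivity)) B π (kk u₂ g₂ B π t2)
    have t4 := test 1 (by rw [map_mul, map_star, t3, star_zero, zero_mul])
    rw [mul_one, map_one] at t4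
    have t5 : ‖(1 : B)‖ ≤ 1 := (CStarAlgebra.norm_le_one_iff_of_nonneg _ zero_le_one).2 le_rfl
    refine eq_zero_of_fix p2 ?_
    nlinarith [norm_nonneg (π Z), norm_nonneg (1 : B)]

/-- the nested lemma -/
theorem nested {e : U} (he : 0 ≤ e) (hP : PIb e) (k : U) {σ : ℝ} (hσ : 0 < σ) :
    ∃ g ∈ RI e, ∃ g' ∈ RI e, Kills g e ∧ Kills g' (cut e σ) ∧ Bound g g' k (1 / 10) := by
  obtain ⟨Z, hZ, HZ⟩ := exists_lift he hP k (τ := σ / 6) (θ := 1 / 10) (by positivity)
    (by norm_num)
  obtain ⟨W, g', w0, w1, w2, w3, w4, w5, HW⟩ := exists_second he hP k hZ (τ := σ / 6)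
    (by positivity)
  set φ := rp e (3 * (σ / 6)) (σ / 6)
  have hφ : φ ∈ RI e := rp_mem_RI' he (by positivity) (by positivity)
  refine ⟨low e (W * star k) (1 / 10), low_mem _ _ _, g', w3 ▸ RI.mul_right hφ g',
    fun B _ _ _ π hπ => ?_, by rwa [show 6 * (σ / 6) = σ by ring] at w5,
    bound_low (by norm_num) w0.star_eq w4⟩
  have h1 := dd_nonpos π hπ
  have h2 : star (W * star k) * (W * star k) ≤ star (φ * star k) * (φ * star k) := by
    have a1 := star_left_conjugate_le_conjugate ((mul_self_le_self w0 w1).trans w1) (φ * star k)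
    have a2 : W * φ = W := by
      have hφs : star φ = φ := (rp_sa _ _ _).star_eq
      simpa only [star_mul, hφs, w0.star_eq] using congrArg star w2
    have a3 : W * star k = W * (φ * star k) := by rw [← mul_assoc, a2]
    rw [a3, star_mul W, w0.star_eq]
    simpa only [mul_assoc, one_mul] using a1
  obtain ⟨p1, p2, p3⟩ := HZ B π ((map_le π (dd_mono e _ h2)).trans h1)
  exact p3 (HW B π p1 p2 fun ξ hξ => le_of_dd_nonpos π (by norm_num) h1 hξ)

end Crest.Agent.R110
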