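import Crest.Agent.R110.NL

/-! Row 110: the skew step and its iteration. -/

set_option autoImplicit false
set_option linter.unusedSectionVars false

universe u

namespace Crest.Agent.R110

variable {U : Type u} [CStarAlgebra U] [PartialOrder U] [StarOrderedRing U]

/-- contractions can be made `β`-small between almost full modules -/
def Small (U : Type u) [CStarAlgebra U] [PartialOrder U] [StarOrderedRing U] (β : ℝ) : Prop :=
  ∀ a b κ : U, 0 ≤ a → 0 ≤ b → PIb a → PIb b → ‖κ‖ ≤ 1 → ∀ σ : ℝ, 0 < σ →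
    ∃ g ∈ RI a, ∃ g' ∈ RI b, Kills g (cut a σ) ∧ Kills g' (cut b σ) ∧ Bound g g' κ β

theorem norm_le_one_of_gram {x a : U} {s l : ℝ} (hl : 0 < l) (h : star x * x = rp a s l) :
    ‖x‖ ≤ 1 := by
  have := norm_rp_le a s hl
  rw [← h, ← norm_sq_eq] at this
  nlinarith [norm_nonneg x]

theorem small_one : Small U 1 := by
  intro a b κ ha hb _ _ hκ σ hσ
  refine ⟨a, self_mem_RI a, b, self_mem_RI b, RI.kills (cut_mem_RI' ha hσ),
    RI.kills (cut_mem_RI' hb hσ), fun ξ _ η _ => (norm_conj_le _ _ _).trans ?_⟩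
  rw [one_mul]
  gcongr
  exact mul_le_of_le_one_right (norm_nonneg _) hκ

theorem Small.mono {β θ : ℝ} (h : Small U β) (hle : β ≤ θ) : Small U θ := by
  intro a b κ ha hb pa pb hκ σ hσ
  obtain ⟨g, h1, g', h2, h3, h4, h5⟩ := h a b κ ha hb pa pb hκ σ hσ
  exact ⟨g, h1, g', h2, h3, h4, fun ξ hξ η hη => (h5 ξ hξ η hη).trans (by gcongr)⟩

theorem small_step : Small U (9 / 10) := by
  intro a b κ ha hb pa pb hκ σ hσ
  have has : IsSelfAdjoint a := .of_nonneg ha
  obtain ⟨y₁, m₁, y₃, m₃, g₁, g₃, h13⟩ := exists_twins pa (Kills.refl a) ha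
    (y := rp a (σ / 4) (σ / 4)) (ε := σ / 4) (C := (σ / 4)⁻¹) (by positivity) (by positivity)
    (rp_nonneg _ _ (by positivity)) (rp_le_cut _ _ _)
  set f := rp b 0 σ with hf
  have hfs : star f = f := (rp_sa _ _ _).star_eq
  have hfb : f ∈ RI b := rp_mem_RI' hb le_rfl hσ
  have he : cut a (σ / 2) ∈ RI a := cut_mem_RI' ha (by positivity)
  obtain ⟨g, hg, g', hg', k, k', hB⟩ := nested (cut_nonneg a (σ / 2)) (pa.mono (RI.kills he))
    (star y₃ * (κ * f * star κ) * y₁) (σ := σ / 8) (by positivity)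
  set n := rp a (3 * σ / 4) (σ / 4) with hn
  have gram : ∀ g ∈ RI (cut a (σ / 2)), Kills g (cut (cut a (σ / 2)) (σ / 8)) →
      ∀ y ∈ RI a, star y * y = rp a (σ / 4) (σ / 4) →
      ∃ t ∈ RI g, ‖t‖ ≤ 1 ∧ star (y * t) * (y * t) = n := by
    intro g hg k y _ hy
    obtain ⟨t, ht, htt⟩ := exists_gram (pa.star_mul (RI.kills (RI.trans he hg))) k
      (cut_nonneg _ _) (y := n) (ε := σ / 8) (C := (σ / 4)⁻¹) (by positivity) (by positivity)
      (rp_nonneg _ _ (by positivity)) (by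
        rw [cut_cut (cut_sa _ _) _ (by positivity), cut_cut has _ (by positivity),
          show σ / 2 + (σ / 8 + σ / 8) = 3 * σ / 4 by ring]
        exact rp_le_cut _ _ _)
    refine ⟨t, ht, norm_le_one_of_gram (by positivity) htt, ?_⟩
    rw [star_mul, mul_assoc, ← mul_assoc (star y), hy,
      RI.fix (rp_mul_cut a (by positivity) (by linarith)) (RI.trans hg ht), htt]
  obtain ⟨t, ht, nt, gt⟩ := gram g hg
    (k.trans (RI.kills (cut_mem_RI' (cut_nonneg _ _) (by positivity)))) y₃ m₃ g₃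
  obtain ⟨s, hs, ns, gs⟩ := gram g' hg' k' y₁ m₁ g₁
  set x₁ := y₁ * s with hx₁
  set x₃ := y₃ * t with hx₃
  have n₁ : ‖x₁‖ ≤ 1 := norm_le_one_of_gram (by positivity) gs
  have n₃ : ‖x₃‖ ≤ 1 := norm_le_one_of_gram (by positivity) gt
  have o13 : star x₁ * x₃ = 0 := by
    rw [hx₁, hx₃, star_mul, mul_assoc, ← mul_assoc (star y₁), h13, zero_mul, mul_zero]
  have o31 : star x₃ * x₁ = 0 := by rw [← star_star x₁, ← star_mul, o13, star_zero]
  have c31 : ‖star x₃ * κ * (f * star κ * x₁)‖ ≤ 1 / 10 := by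
    have := hB t ht s hs
    calc _ = ‖star t * (star y₃ * (κ * f * star κ) * y₁) * s‖ := by
          simp only [hx₁, hx₃, star_mul, mul_assoc]
      _ ≤ 1 / 10 * 1 * 1 := this.trans (by gcongr)
      _ = _ := by ring
  have c13 : ‖star x₁ * κ * (f * star κ * x₃)‖ ≤ 1 / 10 := by
    rw [← norm_star]
    simpa only [star_mul, star_star, hfs, mul_assoc] using c31
  set X := x₁ + x₃ with hX
  have hXX : star X * X = (2 : ℝ) • n := by
    rw [hX, star_add, add_mul, mul_add, mul_add, gs, gt, o13, o31, add_zero, zero_add, two_smul]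
  have nX : ‖X‖ ≤ 3 / 2 := by
    have h1 := norm_sq_eq X
    rw [hXX, norm_smul, Real.norm_eq_abs, abs_two] at h1
    have h2 : ‖n‖ ≤ 1 := norm_rp_le a _ (by positivity)
    nlinarith [norm_nonneg X]
  have hXa : X ∈ RI a := RI.add (RI.mul_right m₁ _) (RI.mul_right m₃ _)
  have hXc : star X * (X * cut a σ) = (2 : ℝ) • cut a σ := by
    rw [← mul_assoc, hXX, smul_mul_assoc, rp_mul_cut a (by positivity) (by linarith)]
  refine ⟨X * cut a σ, RI.mul_right hXa _, low b (star X * κ) (6 / 5), low_mem _ _ _,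
    fun B _ _ _ π hπ => ?_, fun B _ _ _ π hπ => ?_, fun ξ hξ η hη => ?_⟩
  · have := congrArg π hXc
    rw [map_mul, hπ, mul_zero, map_rsmul] at this
    simpa using this.symm
  · have H := fun η (hη : η ∈ RI b) =>
      le_of_dd_nonpos π (by norm_num) (dd_nonpos π hπ) hη
    have test : ∀ x x' : U, X = x + x' → ‖x‖ ≤ 1 → ‖star x' * κ * (f * star κ * x)‖ ≤ 1 / 10 →
        ‖π (f * star κ * x)‖ ≤ 1 / 2 := by
      intro x x' e nx c
      have a1 := H (f * star κ * x) (RI.mul_right (RI.mul_right hfb _) _)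
      rw [e, star_add, add_mul, add_mul, map_add, map_mul π (star x * κ)] at a1
      have a2 : ‖π (star x * κ)‖ ≤ 1 := by
        refine (nmap_le π _).trans ((norm_mul_le _ _).trans ?_)
        rw [norm_star]
        exact mul_le_one₀ nx (norm_nonneg _) hκ
      have a3 := a1.trans (norm_add_le_of_le ((norm_mul_le _ _).trans
        (mul_le_of_le_one_left (norm_nonneg _) a2)) ((nmap_le π _).trans c))
      linarith
    have b1 := test x₁ x₃ hX n₁ c31
    have b3 := test x₃ x₁ (hX.trans (add_comm _ _)) n₃ c13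
    have b4 : ‖π (star X * κ * f)‖ ≤ 1 := by
      rw [← norm_star, ← map_star, star_mul, star_mul, star_star, hfs, ← mul_assoc, hX, mul_add,
        map_add]
      exact (norm_add_le_of_le b1 b3).trans (by norm_num)
    have b5 := H _ (cut_mem_RI' hb hσ)
    rw [← rp_mul_cut b (s := 0) hσ (by linarith), ← mul_assoc, map_mul π (star X * κ * _),
      rp_mul_cut b (s := 0) hσ (by linarith)] at b5
    have b6 := b5.trans ((norm_mul_le _ _).trans (mul_le_of_le_one_left (norm_nonneg _) b4))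
    exact norm_eq_zero.1 (by linarith [norm_nonneg (π (cut b σ))])
  · have a1 : X * star X * ξ = ((2 : ℝ) • (1 : U)) * ξ := RI.left_eq (by
      rw [mul_assoc, hXc, mul_smul_comm, smul_mul_assoc, one_mul]) hξ
    have a2 : (2 : ℝ) • (star ξ * κ * η) = star (star X * ξ) * (star X * κ * η) := by
      have := congrArg star a1
      rw [smul_mul_assoc, one_mul, star_smul, star_trivial (2 : ℝ)] at this
      rw [← smul_mul_assoc, ← smul_mul_assoc, ← this]
      simp only [star_mul, star_star, mul_assoc]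
    have a3 := norm_mul_le (star (star X * ξ)) (star X * κ * η)
    rw [← a2, norm_smul, Real.norm_eq_abs, abs_two, norm_star] at a3
    have a4 := low_le (by norm_num) hη
    have a5 : ‖star X * ξ‖ ≤ 3 / 2 * ‖ξ‖ := by
      refine (norm_mul_le _ _).trans ?_
      rw [norm_star]; gcongr
    have a6 := a3.trans (mul_le_mul a5 a4 (norm_nonneg _) (by positivity))
    linarith

theorem exists_side {a g : U} (ha : 0 ≤ a) (pa : PIb a) (hg : g ∈ RI a) {σ : ℝ} (hσ : 0 < σ)
    (k : Kills g (cut a (σ / 4))) : ∃ x ∈ RI g, ‖x‖ ≤ 1 ∧ ∀ G ∈ RI (cut a (3 * σ / 4)),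
      x * G ∈ RI a ∧ Kills (x * G) G ∧
        ∀ ξ ∈ RI (x * G), star x * ξ ∈ RI G ∧ x * (star x * ξ) = ξ ∧ ‖star x * ξ‖ ≤ ‖ξ‖ := by
  obtain ⟨x, hx, hxx⟩ := exists_gram (pa.star_mul (RI.kills hg)) k (cut_nonneg _ _)
    (y := rp a (σ / 2) (σ / 4)) (ε := σ / 4) (C := (σ / 4)⁻¹) (by positivity) (by positivity)
    (rp_nonneg _ _ (by positivity)) (by
      rw [cut_cut (.of_nonneg ha) _ (by positivity), show σ / 4 + σ / 4 = σ / 2 by ring]
      exact rp_le_cut _ _ _)
  have nx := norm_le_one_of_gram (by positivity) hxx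
  refine ⟨x, hx, nx, fun G hG => ?_⟩
  have e : star x * (x * G) = G := by
    rw [← mul_assoc, hxx, RI.fix (rp_mul_cut a (by positivity) (by linarith)) hG]
  refine ⟨RI.mul_right (RI.trans hg hx) _, ?_, fun ξ hξ => ⟨?_, ?_, ?_⟩⟩
  · conv_rhs => rw [← e]
    exact (Kills.refl _).mul_left _
  · simpa only [e] using RI.mul_left (star x) hξ
  · rw [← mul_assoc]; exact RI.fix (by rw [mul_assoc, e]) hξ
  · refine (norm_mul_le _ _).trans ?_
    rw [norm_star]; exact mul_le_of_le_one_left (norm_nonneg _) nx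

theorem Small.mul {β θ : ℝ} (hβ : 0 < β) (hθ : 0 ≤ θ) (h : Small U β) (h' : Small U θ) :
    Small U (β * θ) := by
  intro a b κ ha hb pa pb hκ σ hσ
  obtain ⟨g, h1, g', h2, h3, h4, h5⟩ := h a b κ ha hb pa pb hκ (σ / 4) (by positivity)
  obtain ⟨x, hx, nx, Hx⟩ := exists_side ha pa h1 hσ h3
  obtain ⟨y, hy, ny, Hy⟩ := exists_side hb pb h2 hσ h4
  obtain ⟨G, k1, G', k2, k3, k4, k5⟩ := h' (cut a (3 * σ / 4)) (cut b (3 * σ / 4))
    (β⁻¹ • (star x * κ * y)) (cut_nonneg _ _) (cut_nonneg _ _)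
    (pa.mono (RI.kills (cut_mem_RI' ha (by positivity))))
    (pb.mono (RI.kills (cut_mem_RI' hb (by positivity)))) (by
      rw [norm_smul, Real.norm_eq_abs, abs_of_pos (by positivity), inv_mul_le_iff₀ hβ]
      refine (h5 x hx y hy).trans ?_
      rw [mul_assoc]
      gcongr
      exact mul_le_one₀ nx (norm_nonneg _) ny) (σ / 4) (by positivity)
  rw [cut_cut (.of_nonneg ha) _ (by positivity), show 3 * σ / 4 + σ / 4 = σ by ring] at k3
  rw [cut_cut (.of_nonneg hb) _ (by positivity), show 3 * σ / 4 + σ / 4 = σ by ring] at k4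
  obtain ⟨a1, a2, a3⟩ := Hx G k1
  obtain ⟨b1, b2, b3⟩ := Hy G' k2
  refine ⟨x * G, a1, y * G', b1, a2.trans k3, b2.trans k4, fun ξ hξ η hη => ?_⟩
  obtain ⟨c1, c2, c3⟩ := a3 ξ hξ
  obtain ⟨d1, d2, d3⟩ := b3 η hη
  have e := k5 _ c1 _ d1
  have e' : star (star x * ξ) * (β⁻¹ • (star x * κ * y)) * (star y * η) =
      β⁻¹ • (star ξ * κ * η) := by
    conv_rhs => rw [← c2, ← d2]
    simp only [star_mul x, mul_smul_comm, smul_mul_assoc, mul_assoc]
  rw [e', norm_smul, Real.norm_eq_abs, abs_of_pos (by positivity), inv_mul_le_iff₀ hβ] at e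
  refine e.trans ?_
  rw [mul_assoc β, mul_assoc β]
  gcongr

theorem small_all {δ : ℝ} (hδ : 0 < δ) : Small U δ := by
  have h : ∀ n : ℕ, Small U ((9 / 10) ^ n) := by
    intro n
    induction n with
    | zero => simpa using small_one
    | succ n ih => rw [pow_succ]; exact ih.mul (by positivity) (by norm_num) small_step
  obtain ⟨n, hn⟩ := exists_pow_lt_of_lt_one hδ (show (9 / 10 : ℝ) < 1 by norm_num)
  exact (h n).mono hn.le

theorem exists_final {a : U} (ha : 0 ≤ a) (pa : PIb a) {σ : ℝ} (hσ : 0 < σ) :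
    ∃ γ : U, ∀ g ∈ RI (cut a σ), Kills g (cut (cut a σ) σ) → ∃ x ∈ RI g, ‖x‖ ≤ ‖a‖ + 1 ∧
      Kills a (γ * x) ∧ ‖star (γ * x) * a * (γ * x) - a‖ ≤ 3 * σ := by
  have has : IsSelfAdjoint a := .of_nonneg ha
  have hc : Continuous fun t : ℝ => (√(max t σ))⁻¹ :=
    Continuous.inv₀ (by fun_prop) fun t =>
      (Real.sqrt_pos.2 (hσ.trans_le (le_max_right _ _))).ne'
  set γ := cfc (fun t : ℝ => (√(max t σ))⁻¹) a with hγ
  have hγs : star γ = γ := cfc_star' _ _
  have h1 : γ * (a * γ) * cut a σ = cut a σ := by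
    have hc' : Continuous fun t : ℝ => t * (√(max t σ))⁻¹ := continuous_id.mul hc
    rw [mul_cfc has hc, cfcm a hc hc' fun _ _ => rfl]
    refine cfcm a (hc.mul hc') (by fun_prop) fun t _ => ?_
    rcases le_total t σ with ht | ht
    · rw [max_eq_right (sub_nonpos.2 ht), mul_zero]
    · have h0 := hσ.trans_le ht
      have := Real.mul_self_sqrt h0.le
      have h2 := (Real.sqrt_pos.2 h0).ne'
      rw [max_eq_left ht, show (√t)⁻¹ * (t * (√t)⁻¹) = 1 by field_simp; linarith, one_mul]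
  refine ⟨γ, fun g hg k => ?_⟩
  have hga := RI.trans (cut_mem_RI' ha hσ) hg
  obtain ⟨x, hx, hxx⟩ := exists_gram (pa.star_mul (RI.kills hga)) k (cut_nonneg _ _)
    (y := cut a (3 * σ)) (ε := σ) (C := 1) hσ zero_le_one (cut_nonneg _ _) (by
      rw [cut_cut (cut_sa _ _) _ hσ.le, cut_cut has _ (by positivity), one_smul,
        show σ + (σ + σ) = 3 * σ by ring])
  refine ⟨x, hx, ?_, (RI.kills (RI.trans hga hx)).mul_left _, ?_⟩
  · have := norm_cut_le ha (s := 3 * σ) (by positivity)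
    rw [← hxx, ← norm_sq_eq] at this
    nlinarith [norm_nonneg x, norm_nonneg a]
  · have : star (γ * x) * a * (γ * x) = star x * (γ * (a * γ) * x) := by
      simp only [star_mul, hγs, mul_assoc]
    rw [this, RI.fix h1 (RI.trans hg hx), hxx]
    exact norm_cut_sub ha (by positivity)

/-- the diagonalisation, in a unital algebra -/
theorem exists_diag {a b : U} (c : U) (ha : 0 ≤ a) (hb : 0 ≤ b) (pa : PIb a) (pb : PIb b)
    {ε : ℝ} (hε : 0 < ε) : ∃ s t : U, Kills a s ∧ Kills b t ∧ ‖star s * a * s - a‖ < ε ∧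
      ‖star t * b * t - b‖ < ε ∧ ‖star s * c * t‖ < ε := by
  have hσ : 0 < ε / 4 := by positivity
  obtain ⟨γ, Hγ⟩ := exists_final ha pa hσ
  obtain ⟨γ', Hγ'⟩ := exists_final hb pb hσ
  set M := ‖star γ * c * γ'‖ + 1 with hM
  have hM0 : 0 < M := by positivity
  obtain ⟨g, h1, g', h2, h3, h4, h5⟩ := small_all (U := U)
    (δ := ε / 2 / (M * (‖a‖ + 1) * (‖b‖ + 1))) (by positivity) (cut a (ε / 4)) (cut b (ε / 4))
    (M⁻¹ • (star γ * c * γ')) (cut_nonneg _ _) (cut_nonneg _ _)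
    (pa.mono (RI.kills (cut_mem_RI' ha hσ))) (pb.mono (RI.kills (cut_mem_RI' hb hσ))) (by
      rw [norm_smul, Real.norm_eq_abs, abs_of_pos (by positivity), inv_mul_le_iff₀ hM0]
      linarith) (ε / 4) hσ
  obtain ⟨x, hx, nx, kx, ex⟩ := Hγ g h1 h3
  obtain ⟨y, hy, ny, ky, ey⟩ := Hγ' g' h2 h4
  refine ⟨γ * x, γ' * y, kx, ky, by linarith, by linarith, ?_⟩
  have e := h5 x hx y hy
  have e' : star x * (M⁻¹ • (star γ * c * γ')) * y = M⁻¹ • (star (γ * x) * c * (γ' * y)) := by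
    simp only [star_mul, mul_smul_comm, smul_mul_assoc, mul_assoc]
  rw [e', norm_smul, Real.norm_eq_abs, abs_of_pos (by positivity), inv_mul_le_iff₀ hM0] at e
  calc _ ≤ M * (ε / 2 / (M * (‖a‖ + 1) * (‖b‖ + 1)) * (‖a‖ + 1) * (‖b‖ + 1)) :=
        e.trans (by gcongr)
    _ = ε / 2 := by field_simp
    _ < ε := by linarith

end Crest.Agent.R110
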